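import Vale.Agent.P233.N2.H994.RK7

/-! P233, RCDA, part K (helper994): integration, block KA2. -/

set_option linter.all false

open MeasureTheory Filter Topology Set
open scoped ENNReal NNReal MeasureTheory

universe u

namespace Vale.Agent.P233.N2.H994.RK

open Vale.Agent.P233.N2.RA

variable {M : Type u} [MetricSpace M] [MeasurableSpace M] {m : Measure M}
  [BorelSpace M] [SecondCountableTopology M] {n : ℕ} {K : ℝ} {θ : M → ℝ}

/-- almost everywhere inequalities between continuous functions hold everywhere -/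
theorem le_of_ae_le (hfull : m.IsOpenPosMeasure) {a b : M → ℝ} (ha : Continuous a)
    (hb : Continuous b) (h : ∀ᵐ x ∂m, a x ≤ b x) (x : M) : a x ≤ b x := by
  have hU : IsOpen {x | b x < a x} := isOpen_lt hb ha
  have h0 : m {x | b x < a x} = 0 := by
    have := ae_iff.1 h
    simpa only [not_le] using this
  have h1 := hU.eq_empty_of_measure_zero h0
  by_contra hcon
  push Not at hcon
  have : x ∈ {x | b x < a x} := hcon
  rw [h1] at this
  exact this

/-- the Lipschitz representative of `Q_t f` is bounded by the bound of `f` -/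
theorem rep_BL (hN : NSp m n K θ) {f : M → ℝ} {B L : ℝ} (hf : H131.BL f B L)
    (h2 : MemLp (cl m f) 2 m) {t : ℝ} (ht : 0 ≤ t) {U : M → ℝ} {L' : ℝ} (hL' : 0 ≤ L')
    (hU : ∀ x y, |U x - U y| ≤ L' * dist x y) (he : Q m t (cl m f) =ᵐ[m] U) :
    H131.BL U B L' := by
  have hUc : Continuous U := by
    have hL0 : ∀ x y, dist (U x) (U y) ≤ L' * dist x y := fun x y => by
      rw [Real.dist_eq]; exact hU x y
    exact (LipschitzWith.of_dist_le_mul (K := ⟨L', hL'⟩) hL0).continuous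
  refine ⟨hL', ?_, hU⟩
  refine le_of_ae_le hN.full hUc.abs continuous_const ?_
  have h1 := hN.isDir.P_bdd (t := t / 2) (by positivity) h2 (K := B) (by
    filter_upwards [cl_ae hf.cont.aestronglyMeasurable (m := m)] with x hx
    rw [hx]; exact hf.bd x)
  filter_upwards [h1, he] with x a1 a2
  rw [← a2]; exact a1

theorem cl_rep {g : M →ₘ[m] ℝ} {U : M → ℝ} (hU : Continuous U) (he : g =ᵐ[m] U) : cl m U = g := by
  rw [eq_iff_ae]
  filter_upwards [cl_ae hU.aestronglyMeasurable (m := m), he] with x h1 h2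
  rw [h1, h2]

/-- Step E, dual form -/
theorem stepE (hN : NSp m n K θ) (h : K1S m n K) {f : M → ℝ} {B L : ℝ} (hf : H131.BL f B L)
    (h2 : MemLp (cl m f) 2 m) {t : ℝ} (ht : 0 < t) {U w : M → ℝ} {L' : ℝ}
    (hUL : H131.BL U B L') (hU : Q m t (cl m f) =ᵐ[m] U)
    (hw : Continuous w) {T : Set ℚ} (hT : Fa m f t U w T) {S : M → ℝ} (hSI : LI m S)
    (hS : ∀ y X, (∀ ϑ ∈ T, X ≤ ϑ * w y + n / 8 * t * Real.exp (max (-K) 0 * t) * (ϑ : ℝ) ^ 2) →
      X + S y ≤ 0)
    (hS' : ∀ y X, (∀ ϑ ∈ T, X ≤ ϑ * (-w y) + n / 8 * t * Real.exp (max (-K) 0 * t) * (ϑ : ℝ) ^ 2) →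
      X + S y ≤ 0) {A : Set M} (hA : MeasurableSet A) (hb : Bornology.IsBounded A) {g : M → ℝ}
    (hg : Integrable (fun x => g x * Q m t (ind m A) x) m)
    (hlg : ∀ᵐ x ∂m, (lipAt f x).toReal ^ 2 ≤ g x) :
    ∫ y in A, (Real.exp (K * t) * (sob m).Γ (Q m t (cl m f)) (Q m t (cl m f)) y + 2 * S y) ∂m ≤
      ∫ x, g x * Q m t (ind m A) x ∂m := by
  haveI := hN.proper
  have hD := hN.isDir
  have ht2 : 0 < t / 2 := by positivity
  have hQW : Q m t (cl m f) ∈ (sob m).W := hD.P_mem ht2 h2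
  have hclU : cl m U = Q m t (cl m f) := cl_rep hUL.cont hU
  have hΓU := gam_le hN hUL (by rw [hclU]; exact hQW)
  rw [hclU] at hΓU
  have hΓU1 : LI m ((sob m).Γ (Q m t (cl m f)) (Q m t (cl m f))) := fun x r =>
    (int_of_mem (hD.mem1 _ hQW)).integrableOn
  obtain ⟨q0, q1, q2, q3⟩ := Q_ind hN ht.le hA hb
  set c : ℝ := ∫ y in A, (Real.exp (K * t) *
    (sob m).Γ (Q m t (cl m f)) (Q m t (cl m f)) y / 2 + S y) ∂m with hc
  have hle : ∀ j : ℕ, c ≤ ∫ x, Hh f (((j : ℝ) + 1)⁻¹) x * Q m t (ind m A) x ∂m := by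
    intro j
    have hσ : (0 : ℝ) < ((j : ℝ) + 1)⁻¹ := by positivity
    obtain ⟨N, hNN, hNb⟩ := exists_DU hN ht.le (Hh_meas hf (((j : ℝ) + 1)⁻¹))
      (fun x => Hh_nonneg hf x) (fun x => Hh_le hf x)
    have h3 := stepD hN h hf h2 ht hUL hU hw hT hS hS' hσ hNN
    rw [← hNN.dual A hA hb, hc]
    refine integral_mono_ae ((((hΓU1.on hb).const_mul _).div_const 2).add (hSI.on hb))
      ((hNN.LI hN.fin).on hb) (ae_restrict_of_ae ?_)
    filter_upwards [h3, hΓU] with y b1 b2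
    show Real.exp (K * t) * (sob m).Γ (Q m t (cl m f)) (Q m t (cl m f)) y / 2 + S y ≤ N y
    have b3 : Real.exp (K * t) * (sob m).Γ (Q m t (cl m f)) (Q m t (cl m f)) y
        ≤ Real.exp (K * t) * (lipAt U y).toReal ^ 2 :=
      mul_le_mul_of_nonneg_left b2 (Real.exp_pos _).le
    linarith
  have hg' : Integrable (fun x => g x / 2 * Q m t (ind m A) x) m := by
    refine (hg.div_const 2).congr (ae_of_all _ fun x => ?_)
    show g x * Q m t (ind m A) x / 2 = g x / 2 * Q m t (ind m A) x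
    ring
  have h4 := Hh_lim hf (int_of_mem q1) (nonneg_iff_ae.1 q0) hg'
    (by filter_upwards [hlg] with x hx; linarith) hle
  have h5 : ∫ x, g x / 2 * Q m t (ind m A) x ∂m = (∫ x, g x * Q m t (ind m A) x ∂m) / 2 := by
    rw [← integral_div]
    refine integral_congr_ae (ae_of_all _ fun x => ?_)
    show g x / 2 * Q m t (ind m A) x = g x * Q m t (ind m A) x / 2
    ring
  rw [h5] at h4
  have h6 : ∫ y in A, (Real.exp (K * t) * (sob m).Γ (Q m t (cl m f)) (Q m t (cl m f)) y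
      + 2 * S y) ∂m = 2 * c := by
    rw [hc, ← integral_const_mul]
    refine integral_congr_ae (ae_of_all _ fun y => ?_)
    show _ = 2 * (Real.exp (K * t) * (sob m).Γ (Q m t (cl m f)) (Q m t (cl m f)) y / 2 + S y)
    ring
  rw [h6]
  linarith

/-- lower semicontinuity of the energy on a set -/
theorem int_Γ_le {C : Calc m} (hD : IsDir C) {u : ℕ → M →ₘ[m] ℝ} {f : M →ₘ[m] ℝ}
    (hu : ∀ n, u n ∈ C.W) (hf : f ∈ C.W)
    (h : Tendsto (fun n => C.nrm2 (u n - f)) atTop (𝓝 0)) {A : Set M} {c : ℕ → ℝ}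
    {c₀ : ℝ} (hc : Tendsto c atTop (𝓝 c₀))
    (hle : ∀ n, ∫ x in A, C.Γ (u n) (u n) x ∂m ≤ c n) : ∫ x in A, C.Γ f f x ∂m ≤ c₀ := by
  have h1 := hD.tendsto_int_abs_Γ hu hf hf h
  have h2 : Tendsto (fun n => c n + 2 * ∫ x, |C.Γ (u n - f) f x| ∂m) atTop (𝓝 (c₀ + 2 * 0)) :=
    hc.add (h1.const_mul 2)
  rw [mul_zero, add_zero] at h2
  refine ge_of_tendsto' h2 fun k => ?_
  have haW : u k - f ∈ C.W := hD.sub_mem (hu k) hf
  have hexp := hD.Γ_expand 1 hf haW
  rw [one_smul, one_pow, one_smul] at hexp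
  have e1 : f + (u k - f) = u k := by abel
  rw [e1] at hexp
  have hsy := hD.symm _ hf _ haW
  rw [hsy] at hexp
  have i1 := int_of_mem (hD.Γ_mem1 haW hf)
  have i2 := int_of_mem (hD.mem1 _ (hu k))
  have i3 := int_of_mem (hD.mem1 _ hf)
  have h3 : ∫ x in A, C.Γ f f x ∂m ≤ ∫ x in A, (C.Γ (u k) (u k) x + 2 * |C.Γ (u k - f) f x|) ∂m := by
    refine integral_mono_ae i3.integrableOn (i2.integrableOn.add
      ((i1.abs.const_mul 2).integrableOn)) (ae_restrict_of_ae ?_)
    filter_upwards [eq_iff_ae.1 hexp, hD.Γ_nonneg_ae haW,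
      add_ae (C.Γ f f + (2 * 1 : ℝ) • C.Γ (u k - f) f) (C.Γ (u k - f) (u k - f)),
      add_ae (C.Γ f f) ((2 * 1 : ℝ) • C.Γ (u k - f) f),
      smul_ae (C.Γ (u k - f) f) (2 * 1 : ℝ)] with x b1 b2 b3 b4 b5
    show C.Γ f f x ≤ C.Γ (u k) (u k) x + 2 * |C.Γ (u k - f) f x|
    rw [b1, b3, b4, b5]
    have := neg_abs_le (C.Γ (u k - f) f x)
    linarith
  have h4 : ∫ x in A, (C.Γ (u k) (u k) x + 2 * |C.Γ (u k - f) f x|) ∂m
      = ∫ x in A, C.Γ (u k) (u k) x ∂m + 2 * ∫ x in A, |C.Γ (u k - f) f x| ∂m := by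
    rw [integral_add i2.integrableOn (i1.abs.const_mul 2).integrableOn, integral_const_mul]
  have h5 : ∫ x in A, |C.Γ (u k - f) f x| ∂m ≤ ∫ x, |C.Γ (u k - f) f x| ∂m :=
    setIntegral_le_integral i1.abs (ae_of_all _ fun x => abs_nonneg _)
  rw [h4] at h3
  have := hle k
  linarith

/-- bounded Lipschitz representative -/
theorem exists_BL {f : M →ₘ[m] ℝ} (hB : f ∈ (sob m).B) :
    ∃ (u : M → ℝ) (B L : ℝ), H131.BL u B L ∧ cl m u = f := by
  obtain ⟨u, ⟨L, hL⟩, ⟨B, hB⟩, he⟩ := hB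
  refine ⟨u, B, L, ⟨L.2, hB, fun x y => ?_⟩, cl_rep hL.continuous he⟩
  have := hL.dist_le_mul x y
  rwa [Real.dist_eq] at this

end Vale.Agent.P233.N2.H994.RK

namespace Vale.Agent.P233.N2.RA

open Vale.Agent.P233.N2.H994.RK

/-- KA2 -/
theorem blk_KA2 : Blk_KA2.{u} := by
  intro M _ _ _ _ _ m n K θ hN h f hW hB t ht
  rcases isEmpty_or_nonempty M with hM | hM
  · rw [le_iff_ae]
    exact ae_of_all _ fun x => (hM.false x).elim
  obtain ⟨x₀⟩ := hM
  have hD := hN.isDir
  have ht2 : 0 < t / 2 := by positivity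
  obtain ⟨u, B, L, hu, hcl⟩ := exists_BL hB
  have hB0 : 0 ≤ B := (abs_nonneg _).trans (hu.bd x₀)
  have h2 := hD.memLp _ hW
  have hΓt : MemLp ((sob m).Γ f f) ∞ m := ((hN.isGamma.lip_iff _ hW).1 hB).2
  have hΓ2 : MemLp ((sob m).Γ f f) 2 m := hD.Γ_mem2 hW hΓt hW
  have hfb : ∀ᵐ x ∂m, |f x| ≤ B := by
    filter_upwards [cl_ae hu.cont.aestronglyMeasurable (m := m)] with x hx
    rw [hcl] at hx
    rw [hx]; exact hu.bd x
  have hW12 := mem_sob_iff.1 hW
  obtain ⟨v, g, hvg, hv2, hg2, -⟩ := hW12.rSlope.exists_seq_bdd hB0 hfb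
  -- the approximating classes
  have hvm : ∀ k, MemLp (cl m (v k)) 2 m := fun k =>
    (memLp_congr_ae (cl_ae (hvg k).1.2.1.1)).2 (hvg k).1.2.1
  have hQf : Q m t f ∈ (sob m).W := hD.P_mem ht2 h2
  have hQv : ∀ k, Q m t (cl m (v k)) ∈ (sob m).W := fun k => hD.P_mem ht2 (hvm k)
  have hI : Tendsto (fun k => I ((cl m (v k) - f) ^ 2)) atTop (𝓝 0) := by
    refine (Met.tendsto_sq_of_eLpNorm (fun k => (hvg k).1.2.1) h2 hv2).congr fun k => ?_
    unfold I
    refine integral_congr_ae ?_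
    filter_upwards [sq_ae (cl m (v k) - f), sub_ae (cl m (v k)) f, cl_ae (hvg k).1.2.1.1]
      with x a1 a2 a3
    rw [a1, a2, a3]
  have hnrm : Tendsto (fun k => (sob m).nrm2 (Q m t (cl m (v k)) - Q m t f)) atTop (𝓝 0) := by
    have h3 := hI.const_mul (1 + t⁻¹)
    rw [mul_zero] at h3
    refine squeeze_zero (fun k => hD.nrm2_nonneg (hD.sub_mem (hQv k) hQf)) (fun k => ?_) h3
    have h4 := mem_sub (hvm k) h2
    have e1 : Q m t (cl m (v k)) - Q m t f = (sob m).P (t / 2) (cl m (v k) - f) :=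
      (hD.P_sub (t / 2) (hvm k) h2).symm
    rw [e1]
    unfold Calc.nrm2
    have h5 := hD.P_sq_le (t / 2) h4
    have h6 := hD.P_E_le' ht2 h4
    have h7 : 2 * (t / 2) = t := by ring
    rw [h7] at h6
    have h8 : I ((sob m).Γ ((sob m).P (t / 2) (cl m (v k) - f))
        ((sob m).P (t / 2) (cl m (v k) - f))) ≤ t⁻¹ * I ((cl m (v k) - f) ^ 2) := by
      rw [inv_mul_eq_div, le_div_iff₀ ht]
      linarith
    linarith
  set V : M → ℝ := fun y => Real.exp (K * t) * (sob m).Γ (Q m t f) (Q m t f) y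
    - Q m t ((sob m).Γ f f) y with hV
  have hΓQ1 : LI m ((sob m).Γ (Q m t f) (Q m t f)) := fun x r =>
    (int_of_mem (hD.mem1 _ hQf)).integrableOn
  have hQΓ : LI m (Q m t ((sob m).Γ f f)) := LI_of_mem2 hN (Q_mem2 hN t hΓ2)
  have hVI : LI m V := fun x r => ((hΓQ1 x r).const_mul _).sub (hQΓ x r)
  have key : ∀ k : ℕ, ∀ᵐ y ∂m, dist x₀ y ≤ k → V y ≤ 0 := by
    intro k
    refine ae_le_ball hN.fin hVI x₀ k 0 fun A hA h0 hs => ?_
    have hb : Bornology.IsBounded A := Metric.isBounded_closedBall.subset hs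
    obtain ⟨q0, q1, q2, q3⟩ := Q_ind hN ht.le hA hb
    have q4 : ∀ᵐ x ∂m, |Q m t (ind m A) x| ≤ 1 := by
      refine hD.P_bdd ht2.le (ind_mem hA (fin_of_bdd hN hb) 2) ?_
      filter_upwards [ind_ae (m := m) hA] with x hx
      rw [hx]
      by_cases hxA : x ∈ A
      · simp [hxA]
      · simp [hxA]
    have q5 : AEStronglyMeasurable (fun x => Q m t (ind m A) x) m :=
      AEEqFun.aestronglyMeasurable _
    have hgi : ∀ G : M → ℝ, MemLp G 2 m → Integrable (fun x => G x ^ 2 * Q m t (ind m A) x) m :=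
      fun G hG => hG.integrable_sq.mul_bdd (c := 1) q5 (by
        filter_upwards [q4] with x hx
        rwa [Real.norm_eq_abs])
    have hmsl := hW12.memLp_mslope
    -- the limit of the right hand sides
    have hlim : Tendsto (fun j => ∫ x, g j x ^ 2 * Q m t (ind m A) x ∂m) atTop
        (𝓝 (∫ x, Met.mslope m f x ^ 2 * Q m t (ind m A) x ∂m)) := by
      set s : M → ℝ := fun x => √(Q m t (ind m A) x) with hs'
      have hsm : AEStronglyMeasurable s m :=
        Real.continuous_sqrt.comp_aestronglyMeasurable q5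
      have hsb : ∀ᵐ x ∂m, |s x| ≤ 1 := by
        filter_upwards [q4] with x hx
        simp only [hs']
        rw [abs_of_nonneg (Real.sqrt_nonneg _), Real.sqrt_le_one]
        exact (abs_le.1 hx).2
      have hmul : ∀ G : M → ℝ, MemLp G 2 m → MemLp (fun x => s x * G x) 2 m := fun G hG => by
        refine hG.mono (hsm.mul hG.1) ?_
        filter_upwards [hsb] with x hx
        rw [norm_mul, Real.norm_eq_abs (s x)]
        exact mul_le_of_le_one_left (norm_nonneg _) hx
      have hlim1 : Tendsto (fun j => eLpNorm ((fun x => s x * g j x) -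
          (fun x => s x * Met.mslope m f x)) 2 m) atTop (𝓝 0) := by
        refine tendsto_of_tendsto_of_tendsto_of_le_of_le tendsto_const_nhds hg2
          (fun _ => zero_le) (fun j => ?_)
        refine eLpNorm_mono_ae ?_
        filter_upwards [hsb] with x hx
        simp only [Pi.sub_apply]
        rw [← mul_sub, norm_mul, Real.norm_eq_abs (s x)]
        exact mul_le_of_le_one_left (norm_nonneg _) hx
      have hlim2 := Met.tendsto_norm_sq_of_eLpNorm (fun j => hmul _ (hvg j).1.2.2.1)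
        (hmul _ hmsl) hlim1
      have e : ∀ G : M → ℝ, ∫ x, (s x * G x) ^ 2 ∂m = ∫ x, G x ^ 2 * Q m t (ind m A) x ∂m := by
        intro G
        refine integral_congr_ae ?_
        filter_upwards [nonneg_iff_ae.1 q0] with x hx
        simp only [hs']
        rw [mul_pow, Real.sq_sqrt hx]; ring
      rw [e] at hlim2
      exact hlim2.congr fun j => e _
    have hlow : ∫ x in A, (sob m).Γ (Q m t f) (Q m t f) x ∂m ≤ Real.exp (-(K * t)) *
        ∫ x, Met.mslope m f x ^ 2 * Q m t (ind m A) x ∂m := by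
      refine int_Γ_le hD hQv hQf hnrm (hlim.const_mul _) fun j => ?_
      obtain ⟨Lj, hLj⟩ := (hvg j).1.1
      have hvL : H131.BL (v j) B Lj := ⟨Lj.2, (hvg j).2, fun x y => by
        have := hLj.dist_le_mul x y
        rwa [Real.dist_eq] at this⟩
      obtain ⟨U, hU, he⟩ := lip_rep hN h hvL (hvm j) ht
      have hL := hvL.L0
      have hUL := rep_BL hN hvL (hvm j) ht.le (by positivity) hU he
      have hT : Fa m (v j) t U (fun _ => 0) {0} := by
        intro ϑ hϑ
        rw [mem_singleton_iff] at hϑ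
        subst hϑ
        refine ⟨0, 1, one_pos, fun s hs hs' => ⟨by simp, U, _, hUL.L0, hU, ?_, fun x => ?_⟩⟩
        · simp only [Rat.cast_zero, zero_mul, add_zero, one_mul]; exact he
        · simp
      have hkey := stepE hN h hvL (hvm j) ht hUL he continuous_const hT (S := fun _ => 0)
        (LI_of_bdd hN.fin aestronglyMeasurable_const (c := 0) (fun x => by simp))
        (fun y X hX => by have := hX 0 rfl; simpa using this)
        (fun y X hX => by have := hX 0 rfl; simpa using this) hA hb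
        (g := fun x => g j x ^ 2) (hgi _ (hvg j).1.2.2.1) (by
          filter_upwards [(hvg j).1.2.2.2] with x hx
          exact pow_le_pow_left₀ ENNReal.toReal_nonneg
            (ENNReal.toReal_le_of_le_ofReal hx.1 hx.2) 2)
      simp only [mul_zero, add_zero] at hkey
      rw [integral_const_mul] at hkey
      have e2 : Real.exp (-(K * t)) = (Real.exp (K * t))⁻¹ := Real.exp_neg _
      rw [e2, inv_mul_eq_div, le_div_iff₀ (Real.exp_pos _), mul_comm]
      exact hkey
    have e3 : ∫ x, Met.mslope m f x ^ 2 * Q m t (ind m A) x ∂m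
        = ∫ y in A, Q m t ((sob m).Γ f f) y ∂m := by
      rw [← I_mul_ind hA, Q_symm hN t hΓ2 (ind_mem hA (fin_of_bdd hN hb) 2)]
      unfold I
      refine integral_congr_ae ?_
      filter_upwards [mul_ae ((sob m).Γ f f) (Q m t (ind m A)), sob_Γ_self_ae hW] with x a1 a2
      rw [a1, a2]
    rw [e3] at hlow
    have e4 : ∫ y in A, V y ∂m = Real.exp (K * t) * ∫ y in A, (sob m).Γ (Q m t f) (Q m t f) y ∂m
        - ∫ y in A, Q m t ((sob m).Γ f f) y ∂m := by
      rw [← integral_const_mul, ← integral_sub]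
      · exact (hΓQ1.on hb).const_mul _
      · exact hQΓ.on hb
    rw [e4, zero_mul]
    have e5 := mul_le_mul_of_nonneg_left hlow (Real.exp_pos (K * t)).le
    rw [← mul_assoc, ← Real.exp_add, add_neg_cancel, Real.exp_zero, one_mul] at e5
    linarith
  rw [le_iff_ae]
  filter_upwards [ae_all_iff.2 key, smul_ae ((sob m).Γ (Q m t f) (Q m t f)) (Real.exp (K * t))]
    with y hy b2
  obtain ⟨k, hk⟩ := exists_nat_gt (dist x₀ y)
  have := hy k hk.le
  simp only [hV] at this
  rw [b2]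
  linarith

end Vale.Agent.P233.N2.RA
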