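import Vale.Agent.P233.N2.H994.RK8
import Vale.Agent.P233.H103.Semi5

/-! P233, RCDA, part K (helper994): block KA3. -/

set_option linter.all false

open MeasureTheory Filter Topology Set
open scoped ENNReal NNReal MeasureTheory

universe u

namespace Vale.Agent.P233.N2.H994.RK

open Vale.Agent.P233.N2.RA

variable {M : Type u} [MetricSpace M] [MeasurableSpace M] {m : Measure M}
  [BorelSpace M] [SecondCountableTopology M] {n : ℕ} {K : ℝ} {θ : M → ℝ}

section taylor

variable {f h h' : M →ₘ[m] ℝ} {κ : ℝ}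

theorem P_int2 (hD : IsDir (sob m)) (hfh : (sob m).IsLap f h) {g : M →ₘ[m] ℝ} (hg : MemLp g 2 m)
    {s t : ℝ} (hs : 0 ≤ s) (ht : 0 ≤ t) :
    ∫ r in s..t, I ((sob m).P r h * g) = I ((sob m).P t f * g) - I ((sob m).P s f * g) := by
  have hc := hD.P_cont_I hfh.2.1 hg
  have h1 := hD.P_integral hs hfh hg
  have h2 := hD.P_integral ht hfh hg
  have h3 := intervalIntegral.integral_add_adjacent_intervals (hc.intervalIntegrable (μ := volume) 0 s)
    (hc.intervalIntegrable (μ := volume) s t)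
  rw [h1, h2] at h3
  linarith

theorem P_I_le (hD : IsDir (sob m)) (hh : MemLp h' 2 m) (hκ : ∀ᵐ x ∂m, |h' x| ≤ κ)
    {g : M →ₘ[m] ℝ} (hg2 : MemLp g 2 m) (hg1 : MemLp g 1 m) (hg0 : 0 ≤ g) {r : ℝ} (hr : 0 ≤ r) :
    |I ((sob m).P r h' * g)| ≤ κ * I g := by
  have h1 := hD.P_bdd hr hh hκ
  have h2 : |I ((sob m).P r h' * g)| ≤ ∫ x, |((sob m).P r h' * g : M →ₘ[m] ℝ) x| ∂m :=
    abs_integral_le_integral_abs
  refine h2.trans ?_
  unfold I
  rw [← integral_const_mul]
  refine integral_mono_ae (int_of_mem (mem_mul_22 (hD.P_mem2 r hh) hg2)).abs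
    ((int_of_mem hg1).const_mul κ) ?_
  filter_upwards [h1, mul_ae ((sob m).P r h') g, nonneg_iff_ae.1 hg0] with x a1 a2 a3
  show |((sob m).P r h' * g : M →ₘ[m] ℝ) x| ≤ κ * g x
  rw [a2, abs_mul, abs_of_nonneg a3]
  exact mul_le_mul_of_nonneg_right a1 a3

theorem taylor_I (hD : IsDir (sob m)) (hfh : (sob m).IsLap f h) (hhh : (sob m).IsLap h h')
    (hκ : ∀ᵐ x ∂m, |h' x| ≤ κ) (hκ0 : 0 ≤ κ) {g : M →ₘ[m] ℝ} (hg2 : MemLp g 2 m)
    (hg1 : MemLp g 1 m) (hg0 : 0 ≤ g) {τ a : ℝ} (hτ : 0 ≤ τ) (ha : 0 ≤ τ + a) :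
    |I ((sob m).P (τ + a) f * g) - I ((sob m).P τ f * g) - a * I ((sob m).P τ h * g)|
      ≤ κ * a ^ 2 * I g := by
  have hIg : 0 ≤ I g := I_nonneg hg0
  have hc := hD.P_cont_I hfh.2.1 hg2
  have h1 := P_int2 hD hfh hg2 hτ ha
  have h2 : ∀ s : ℝ, 0 ≤ s → |I ((sob m).P s h * g) - I ((sob m).P τ h * g)|
      ≤ κ * I g * |s - τ| := by
    intro s hs
    rw [← P_int2 hD hhh hg2 hτ hs]
    have := intervalIntegral.norm_integral_le_of_norm_le_const
      (f := fun r => I ((sob m).P r h' * g)) (a := τ) (b := s) (C := κ * I g) (fun r hr => by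
        have hr0 : 0 ≤ r := by
          rcases le_total τ s with h3 | h3
          · rw [uIoc_of_le h3] at hr; linarith [hr.1]
          · rw [uIoc_of_ge h3] at hr; linarith [hr.1]
        rw [Real.norm_eq_abs]
        exact P_I_le hD hhh.2.1 hκ hg2 hg1 hg0 hr0)
    rwa [Real.norm_eq_abs] at this
  have h3 : I ((sob m).P (τ + a) f * g) - I ((sob m).P τ f * g) - a * I ((sob m).P τ h * g)
      = ∫ r in τ..(τ + a), (I ((sob m).P r h * g) - I ((sob m).P τ h * g)) := by
    rw [intervalIntegral.integral_sub (hc.intervalIntegrable (μ := volume) _ _)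
      intervalIntegrable_const, h1, intervalIntegral.integral_const]
    simp
  rw [h3]
  have h4 := intervalIntegral.norm_integral_le_of_norm_le_const
    (f := fun r => I ((sob m).P r h * g) - I ((sob m).P τ h * g)) (a := τ) (b := τ + a)
    (C := κ * I g * |a|) (fun r hr => by
      have hr1 : 0 ≤ r ∧ |r - τ| ≤ |a| := by
        rcases le_total 0 a with h5 | h5
        · rw [uIoc_of_le (by linarith)] at hr
          refine ⟨by linarith [hr.1], ?_⟩
          rw [abs_of_nonneg (by linarith [hr.1]), abs_of_nonneg h5]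
          linarith [hr.2]
        · rw [uIoc_of_ge (by linarith)] at hr
          refine ⟨by linarith [hr.1], ?_⟩
          rw [abs_of_nonpos (by linarith [hr.2]), abs_of_nonpos h5]
          linarith [hr.1]
      rw [Real.norm_eq_abs]
      refine (h2 r hr1.1).trans ?_
      exact mul_le_mul_of_nonneg_left hr1.2 (by positivity))
  rw [Real.norm_eq_abs, add_sub_cancel_left] at h4
  refine h4.trans (le_of_eq ?_)
  rw [mul_assoc, ← sq, sq_abs]
  ring

/-- Taylor expansion of the flow, uniform in space -/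
theorem taylor (hN : NSp m n K θ) (hfh : (sob m).IsLap f h) (hhh : (sob m).IsLap h h')
    (hκ : ∀ᵐ x ∂m, |h' x| ≤ κ) (hκ0 : 0 ≤ κ) {τ a : ℝ} (hτ : 0 ≤ τ) (ha : 0 ≤ τ + a) :
    ∀ᵐ x ∂m, |(sob m).P (τ + a) f x - ((sob m).P τ f x + a * (sob m).P τ h x)| ≤ κ * a ^ 2 := by
  rcases isEmpty_or_nonempty M with hM | hM
  · exact ae_of_all _ fun x => (hM.false x).elim
  obtain ⟨x₀⟩ := hM
  have hD := hN.isDir
  have hf2 := hD.memLp _ hfh.1
  set v : M → ℝ := fun x => (sob m).P (τ + a) f x - ((sob m).P τ f x + a * (sob m).P τ h x) with hv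
  have l1 := LI_of_mem2 hN (hD.P_mem2 (τ + a) hf2)
  have l2 := LI_of_mem2 hN (hD.P_mem2 τ hf2)
  have l3 := LI_of_mem2 hN (hD.P_mem2 τ hfh.2.1)
  have hvI : LI m v := fun x r => (l1 x r).sub ((l2 x r).add ((l3 x r).const_mul a))
  have hA : ∀ A : Set M, MeasurableSet A → Bornology.IsBounded A →
      |∫ x in A, v x ∂m| ≤ κ * a ^ 2 * (m A).toReal := by
    intro A hA hb
    have g2 := ind_mem (m := m) hA (fin_of_bdd hN hb) 2
    have g1 := ind_mem (m := m) hA (fin_of_bdd hN hb) 1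
    have key := taylor_I hD hfh hhh hκ hκ0 g2 g1 (ind_nonneg hA) hτ ha
    rw [I_mul_ind hA, I_mul_ind hA, I_mul_ind hA, I_ind hA] at key
    have e : ∫ x in A, v x ∂m = ∫ x in A, (sob m).P (τ + a) f x ∂m
        - ∫ x in A, (sob m).P τ f x ∂m - a * ∫ x in A, (sob m).P τ h x ∂m := by
      simp only [hv]
      have hsum : IntegrableOn (fun x => (sob m).P τ f x + a * (sob m).P τ h x) A m :=
        (l2.on hb).add ((l3.on hb).const_mul a)
      rw [integral_sub (l1.on hb) hsum,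
        integral_add (l2.on hb) ((l3.on hb).const_mul a), integral_const_mul]
      ring
    rw [e]; exact key
  have k1 : ∀ k : ℕ, ∀ᵐ y ∂m, dist x₀ y ≤ k → v y ≤ κ * a ^ 2 := fun k =>
    ae_le_ball hN.fin hvI x₀ k _ fun A hA' h0 hs =>
      (abs_le.1 (hA A hA' (Metric.isBounded_closedBall.subset hs))).2
  have k2 : ∀ k : ℕ, ∀ᵐ y ∂m, dist x₀ y ≤ k → -(κ * a ^ 2) ≤ v y := fun k =>
    ae_ge_ball hN.fin hvI x₀ k _ fun A hA' h0 hs => by
      have := (abs_le.1 (hA A hA' (Metric.isBounded_closedBall.subset hs))).1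
      linarith
  filter_upwards [ae_all_iff.2 k1, ae_all_iff.2 k2] with y b1 b2
  obtain ⟨k, hk⟩ := exists_nat_gt (dist x₀ y)
  exact abs_le.2 ⟨b2 k hk.le, b1 k hk.le⟩

end taylor

theorem J_of_lap {C : Calc m} (hD : IsDir C) {f h : M →ₘ[m] ℝ} (hfh : C.IsLap f h) {lam : ℝ}
    (hl : 0 < lam) : C.J lam (f - lam • h) = f := by
  have hf2 := hD.memLp _ hfh.1
  refine hD.J_eq hl ⟨hfh.1, fun k hk => ?_⟩
  have hk2 := hD.memLp _ hk
  have e1 : I (C.Γ f k) = -I (h * k) := hfh.2.2 _ hk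
  have e2 : (f - lam • h) * k = f * k - lam • (h * k) := by
    rw [sub_mul, smul_mul_assoc]
  rw [e2, I_sub (mem_mul_22 hf2 hk2) (mem_smul _ (mem_mul_22 hfh.2.1 hk2)), I_smul, e1]
  ring

/-- `f` is Lipschitz if `f`, `Δf`, `Δ²f` are bounded -/
theorem reg_B (hN : NSp m n K θ) (hB : (sob m).BEi K) {f h h' : M →ₘ[m] ℝ}
    (hfh : (sob m).IsLap f h) (hhh : (sob m).IsLap h h') (hf : MemLp f ∞ m) (hh : MemLp h ∞ m)
    (hh' : MemLp h' ∞ m) : f ∈ (sob m).B := by
  haveI : SigmaFinite m := sigmaFinite_of_ball hN.fin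
  have hD := hN.isDir
  have hf2 := hD.memLp _ hfh.1
  have hh2 := hD.memLp _ hhh.1
  set r : ℝ := 1 / (4 * |K| + 4) with hr
  have hr0 : 0 < r := by positivity
  have hr4 : 4 * |K| * r ≤ 1 := by
    rw [hr, mul_one_div, div_le_one (by positivity)]
    linarith
  set g : M →ₘ[m] ℝ := (f - r • h) - r • (h - r • h') with hg
  have h1 : (sob m).IsLap (f - r • h) (h - r • h') := by
    have := hD.isLap_add hfh (hD.isLap_smul (-r) hhh)
    rwa [neg_smul, neg_smul, ← sub_eq_add_neg, ← sub_eq_add_neg] at this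
  have e1 : (sob m).J r g = f - r • h := J_of_lap hD h1 hr0
  have e2 : (sob m).J r ((sob m).J r g) = f := by rw [e1]; exact J_of_lap hD hfh hr0
  have hg2 : MemLp g 2 m := mem_sub (mem_sub hf2 (mem_smul _ hh2))
    (mem_smul _ (mem_sub hh2 (mem_smul _ hhh.2.1)))
  have hgt : MemLp g ∞ m := mem_sub (mem_sub hf (mem_smul _ hh))
    (mem_smul _ (mem_sub hh (mem_smul _ hh')))
  have h2 := hN.isGamma.testI_JJ hB hr0 hr4 hg2 hgt
  rw [e2] at h2
  exact h2.1.1

/-- bounded + Lipschitz representative of `Q_t h`, `h` bounded -/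
theorem rep_bdd (hN : NSp m n K θ) (hB : (sob m).BEi K) {h : M →ₘ[m] ℝ} (h2 : MemLp h 2 m)
    (ht' : MemLp h ∞ m) {t : ℝ} (ht : 0 < t) :
    ∃ (W : M → ℝ) (B L : ℝ), H131.BL W B L ∧ Q m t h =ᵐ[m] W := by
  haveI : SigmaFinite m := sigmaFinite_of_ball hN.fin
  have ht2 : 0 < t / 2 := by positivity
  have h1 := hN.isGamma.P_Γ_top hB ht2 h2 ht'
  have h3 : Q m t h ∈ (sob m).B :=
    (hN.isGamma.lip_iff _ (hN.isDir.P_mem ht2 h2)).2 ⟨hN.isDir.P_memTop ht2.le h2 ht', h1⟩
  obtain ⟨W, B, L, hW, he⟩ := exists_BL h3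
  refine ⟨W, B, L, hW, ?_⟩
  rw [← he]
  exact cl_ae hW.cont.aestronglyMeasurable

/-- optimisation in the second parameter -/
theorem opt_rat {w β X : ℝ} (hβ : 0 < β) (h : ∀ ϑ : ℚ, X ≤ ϑ * w + β * (ϑ : ℝ) ^ 2) :
    X + w ^ 2 / (4 * β) ≤ 0 := by
  have hcl : IsClosed {ϑ : ℝ | X ≤ ϑ * w + β * ϑ ^ 2} :=
    isClosed_le continuous_const (by fun_prop)
  have h1 : ∀ ϑ : ℝ, X ≤ ϑ * w + β * ϑ ^ 2 := by
    intro ϑ
    have hsub : range ((↑) : ℚ → ℝ) ⊆ {ϑ : ℝ | X ≤ ϑ * w + β * ϑ ^ 2} := by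
      rintro _ ⟨q, rfl⟩
      exact h q
    exact (hcl.closure_subset_iff.2 hsub) (Rat.denseRange_cast ϑ)
  have h2 := h1 (-w / (2 * β))
  have h3 : -w / (2 * β) * w + β * (-w / (2 * β)) ^ 2 = -(w ^ 2 / (4 * β)) := by
    field_simp
    ring
  linarith

/-- local Sobolev-to-Lipschitz property, first form -/
theorem lip_le_c (hN : NSp m n K θ) {v : M → ℝ} {B L : ℝ} (hv : H131.BL v B L)
    (hW : cl m v ∈ (sob m).W) {x : M} {c ρ : ℝ} (hc : 0 < c) (hρ : 0 < ρ)
    (hΓ : ∀ᵐ y ∂m, dist y x < ρ → (sob m).Γ (cl m v) (cl m v) y ≤ c ^ 2) :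
    lipAt v x ≤ ENNReal.ofReal c := by
  have hW12 := mem_sob_iff.1 hW
  set ψ : M → ℝ := fun y => c * max 0 (ρ - dist y x) with hψ
  set z : M → ℝ := fun y => max (-ψ y) (min (ψ y) (v y - v x)) with hz
  have hψ0 : ∀ y, 0 ≤ ψ y := fun y => mul_nonneg hc.le (le_max_left _ _)
  have hψR : ∀ y, ρ ≤ dist y x → ψ y = 0 := fun y hy => by
    simp only [hψ]; rw [max_eq_left (by linarith), mul_zero]
  have hzR : ∀ y, ρ ≤ dist y x → z y = 0 := fun y hy => by
    simp only [hz]; rw [hψR y hy, neg_zero, max_eq_left (min_le_left _ _)]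
  have hψL : LipschitzWith ⟨c, hc.le⟩ ψ := LipschitzWith.of_dist_le_mul fun y y' => by
    rw [Real.dist_eq]
    simp only [hψ]
    rw [← mul_sub, abs_mul, abs_of_pos hc]
    show c * _ ≤ c * dist y y'
    refine mul_le_mul_of_nonneg_left ?_ hc.le
    rw [max_comm 0, max_comm 0]
    refine (abs_max_sub_max_le_abs _ _ _).trans ?_
    have : (ρ - dist y x) - (ρ - dist y' x) = dist y' x - dist y x := by ring
    rw [this, dist_comm y y']
    exact abs_dist_sub_le y' y x
  have hvL : LipschitzWith ⟨L, hv.L0⟩ fun y => v y - v x := LipschitzWith.of_dist_le_mul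
    fun y y' => by
      rw [Real.dist_eq]
      have : v y - v x - (v y' - v x) = v y - v y' := by ring
      rw [this]; exact hv.lip y y'
  have hzL : ∃ Z : ℝ≥0, LipschitzWith Z z := ⟨_, hψL.neg.max (hψL.min hvL)⟩
  obtain ⟨Z, hZ⟩ := hzL
  have g1 := Met.good_of_bounded_support hN.fin hψL (x₀ := x) (R := ρ) (fun y hy => hψR y (by
    rwa [Metric.mem_ball, not_lt] at hy))
  have g2 := Met.good_of_bounded_support hN.fin hZ (x₀ := x) (R := ρ) (fun y hy => hzR y (by
    rwa [Metric.mem_ball, not_lt] at hy))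
  have w1 : Met.W12 m ψ := ⟨_, g1.rSlope⟩
  have w2 : Met.W12 m z := ⟨_, g2.rSlope⟩
  have hzc : ∀ᵐ y ∂m, Met.mslope m z y ≤ c := by
    filter_upwards [g1.rSlope.mslope_le, Met.mslope_eq_of_sub_eq_const w2 w1 0,
      Met.mslope_eq_of_sub_eq_const w2 w1.neg 0, Met.mslope_neg w1,
      Met.mslope_eq_of_sub_eq_const w2 hW12 (-v x), hΓ, sob_Γ_self_ae hW, slope_ae hW,
      hW12.mslope_nonneg, cl_ae hv.cont.aestronglyMeasurable (m := m)]
      with y a1 a2 a3 a4 a5 a6 a7 a8 a9 a10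
    have b1 : Met.mslope m ψ y ≤ c := by
      refine a1.trans ?_
      exact indicator_le_self' (fun _ _ => hc.le) y
    by_cases hy : dist y x < ρ
    · have hcase : z y = ψ y ∨ z y = -ψ y ∨ z y = v y - v x := by
        simp only [hz]
        rcases max_choice (-ψ y) (min (ψ y) (v y - v x)) with e | e
        · exact Or.inr (Or.inl e)
        · rcases min_choice (ψ y) (v y - v x) with e' | e'
          · left; rw [e, e']
          · right; right; rw [e, e']
      rcases hcase with e | e | e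
      · rw [a2 (by rw [e, sub_self])]; exact b1
      · rw [a3 (by rw [e, Pi.neg_apply, sub_self]), a4]; exact b1
      · rw [a5 (by rw [e, a10]; ring)]
        have b2 := a6 hy
        rw [a7] at b2
        exact (sq_le_sq₀ a9 hc.le).1 b2
    · push Not at hy
      rw [a2 (by rw [hzR y hy, hψR y hy, sub_self])]; exact b1
  -- the scaled function
  have hzW : cl m z ∈ (sob m).W := mem_sob_iff.2 (w2.congr (cl_ae hZ.continuous.aestronglyMeasurable).symm)
  have hcz : c⁻¹ • cl m z ∈ (sob m).W := hN.isDir.smul_mem _ _ hzW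
  have hsl : slope (c⁻¹ • cl m z) ≤ 1 := by
    rw [le_iff_ae]
    have e0 : ⇑(c⁻¹ • cl m z) =ᵐ[m] fun y => c⁻¹ * z y := by
      filter_upwards [smul_ae (cl m z) c⁻¹, cl_ae hZ.continuous.aestronglyMeasurable (m := m)]
        with y a1 a2
      rw [a1, a2]
    filter_upwards [slope_ae hcz, one_ae (M := M) (m := m), hzc, Met.mslope_const_mul c⁻¹ w2,
      Met.mslope_congr e0 (mem_sob_iff.1 hcz)] with y a1 a2 a3 a4 a5
    rw [a1, a2, a5, a4, abs_of_pos (inv_pos.2 hc), inv_mul_le_iff₀ hc, mul_one]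
    exact a3
  obtain ⟨u, hu1, hu2⟩ := hN.s2l _ hcz hsl
  have hae : ∀ᵐ y ∂m, z y = c * u y := by
    filter_upwards [hu2, smul_ae (cl m z) c⁻¹, cl_ae hZ.continuous.aestronglyMeasurable (m := m)]
      with y a1 a2 a3
    rw [← a1, a2, a3, mul_inv_cancel_left₀ hc.ne']
  have hucont : Continuous fun y => c * u y := continuous_const.mul hu1.continuous
  have heq : ∀ y, z y = c * u y := fun y => le_antisymm
    (le_of_ae_le hN.full hZ.continuous hucont (hae.mono fun _ h => h.le) y)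
    (le_of_ae_le hN.full hucont hZ.continuous (hae.mono fun _ h => h.ge) y)
  have hzx : z x = 0 := by
    simp only [hz]
    rw [sub_self, min_eq_right (hψ0 x), max_eq_right (by linarith [hψ0 x])]
  have hnear : ∀ᶠ y in 𝓝 x, |v y - v x| ≤ c * dist y x := by
    have h1 : ∀ᶠ y in 𝓝 x, dist y x < c * ρ / (c + L + 1) :=
      Metric.ball_mem_nhds x (by have := hv.L0; positivity)
    filter_upwards [h1] with y hy
    have hL0 := hv.L0
    have h2 : dist y x * (c + L + 1) < c * ρ := by rwa [lt_div_iff₀ (by positivity)] at hy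
    have h3 : 0 ≤ dist y x := dist_nonneg
    have h4 := hv.lip y x
    have h5 : c * (ρ - dist y x) ≤ ψ y := mul_le_mul_of_nonneg_left (le_max_right _ _) hc.le
    have h6 : |v y - v x| ≤ ψ y := by nlinarith
    have h7 : z y = v y - v x := by
      simp only [hz]
      rw [min_eq_right (abs_le.1 h6).2, max_eq_right (abs_le.1 h6).1]
    rw [← h7, heq y]
    have h8 : c * u y = c * (u y - u x) := by
      have := heq x
      rw [hzx] at this
      rw [mul_sub, ← this, sub_zero]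
    rw [h8, abs_mul, abs_of_pos hc]
    refine mul_le_mul_of_nonneg_left ?_ hc.le
    have := hu1.dist_le_mul y x
    rw [Real.dist_eq, NNReal.coe_one, one_mul] at this
    exact this
  unfold lipAt
  refine limsup_le_of_le (by isBoundedDefault) ?_
  rw [eventually_nhdsWithin_iff]
  filter_upwards [hnear] with y hy hyx
  refine ENNReal.ofReal_le_ofReal ?_
  rw [div_le_iff₀ (dist_pos.2 hyx)]
  exact hy

/-- local Sobolev-to-Lipschitz property -/
theorem lip_le_of_Γ (hN : NSp m n K θ) {v : M → ℝ} {B L : ℝ} (hv : H131.BL v B L)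
    (hW : cl m v ∈ (sob m).W) {G : M → ℝ} (hG : Continuous G)
    (hΓ : ∀ᵐ x ∂m, (sob m).Γ (cl m v) (cl m v) x ≤ G x) (x : M) :
    (lipAt v x).toReal ^ 2 ≤ G x := by
  have hG0 : 0 ≤ G x := le_of_ae_le hN.full continuous_const hG (by
    filter_upwards [hΓ, hN.isDir.Γ_nonneg_ae hW] with y a1 a2 using a2.trans a1) x
  have key : ∀ c : ℝ, √(G x) < c → (lipAt v x).toReal ≤ c := by
    intro c hc
    have hc0 : 0 < c := (Real.sqrt_nonneg _).trans_lt hc
    have h1 : G x < c ^ 2 := (Real.sqrt_lt' hc0).1 hc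
    obtain ⟨ρ, hρ, h2⟩ := Metric.eventually_nhds_iff.1 (hG.continuousAt.eventually (gt_mem_nhds h1))
    have h3 := lip_le_c hN hv hW hc0 hρ (x := x) (by
      filter_upwards [hΓ] with y a1 a2
      exact a1.trans (h2 a2).le)
    exact ENNReal.toReal_le_of_le_ofReal hc0.le h3
  have h4 : (lipAt v x).toReal ≤ √(G x) := le_of_forall_gt_imp_ge_of_dense key
  calc (lipAt v x).toReal ^ 2 ≤ √(G x) ^ 2 := pow_le_pow_left₀ ENNReal.toReal_nonneg h4 2
    _ = G x := Real.sq_sqrt hG0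

/-- the dual form of KA3 -/
theorem ka3_core (hN : NSp m n K θ) (h : K1S m n K) (hB : (sob m).BEi K)
    {h₁ h₂ : M →ₘ[m] ℝ} {u : M → ℝ} {B L : ℝ} (hu : H131.BL u B L)
    (hf1 : (sob m).IsLap (cl m u) h₁) (hf2 : (sob m).IsLap h₁ h₂)
    (h1t : MemLp h₁ ∞ m) (h2t : MemLp h₂ ∞ m) {t : ℝ} (ht : 0 < t)
    {A : Set M} (hA : MeasurableSet A) (hb : Bornology.IsBounded A) {g : M → ℝ}
    (hg : Integrable (fun x => g x * Q m t (ind m A) x) m)
    (hlg : ∀ᵐ x ∂m, (lipAt u x).toReal ^ 2 ≤ g x) :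
    ∫ y in A, (Real.exp (K * t) * (sob m).Γ (Q m t (cl m u)) (Q m t (cl m u)) y
      + t / (n * Real.exp (max (-K) 0 * t)) * Q m t h₁ y ^ 2) ∂m ≤
      ∫ x, g x * Q m t (ind m A) x ∂m := by
  have hD := hN.isDir
  have hn : (0 : ℝ) < n := by exact_mod_cast hN.n_pos
  have ht2 : 0 < t / 2 := by positivity
  have hW := hf1.1
  have hL2 := hD.memLp _ hW
  obtain ⟨U, hU, he⟩ := lip_rep hN h hu hL2 ht
  have hL := hu.L0
  have hUL := rep_BL hN hu hL2 ht.le (by positivity) hU he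
  obtain ⟨W, BW, LW, hWL, hWe⟩ := rep_bdd hN hB hf1.2.1 h1t ht
  obtain ⟨κ, hκ⟩ := mem_top_iff.1 h2t
  have hκ' : ∀ᵐ x ∂m, |h₂ x| ≤ |κ| := hκ.mono fun x hx => hx.trans (le_abs_self κ)
  set E := Real.exp (max (-K) 0 * t) with hE
  have hE0 : 0 < E := Real.exp_pos _
  set β : ℝ := n / 8 * t * E with hβ
  have hβ0 : 0 < β := by positivity
  set w : M → ℝ := fun x => t / 2 * W x with hw
  have hwc : Continuous w := continuous_const.mul hWL.cont
  have hT : Fa m u t U w univ := by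
    intro ϑ _
    refine ⟨|κ| * (ϑ * t / 2) ^ 2, 1 / (|(ϑ : ℝ)| + 1), by positivity, fun s hs hs' => ?_⟩
    have hs0 : (0 : ℝ) < s := by exact_mod_cast hs
    have hp : 0 < 1 + (ϑ : ℝ) * s := by
      rw [lt_div_iff₀ (by positivity)] at hs'
      have h3 : -(|(ϑ : ℝ)| * s) ≤ (ϑ : ℝ) * s := by
        have := neg_abs_le (ϑ : ℝ)
        nlinarith
      nlinarith
    obtain ⟨U', hU', he'⟩ := lip_rep hN h hu hL2 (t := (1 + (ϑ : ℝ) * s) * t) (by positivity)
    refine ⟨hp, U', _, by positivity, hU', he', ?_⟩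
    have hUc' := (rep_BL hN hu hL2 (by positivity) (by positivity) hU' he').cont
    have hUc := hUL.cont
    refine le_of_ae_le hN.full (a := fun x => |U' x - (U x + s * (ϑ * w x))|)
      (b := fun _ => |κ| * (ϑ * t / 2) ^ 2 * (s : ℝ) ^ 2) (by fun_prop) continuous_const ?_
    have htay := taylor hN hf1 hf2 hκ' (abs_nonneg κ) (τ := t / 2) (a := ϑ * s * (t / 2)) ht2.le
      (by
        have : t / 2 + ϑ * s * (t / 2) = (1 + ϑ * s) * (t / 2) := by ring
        rw [this]; positivity)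
    have e1 : t / 2 + ϑ * s * (t / 2) = (1 + ϑ * s) * t / 2 := by ring
    rw [e1] at htay
    filter_upwards [htay, he, he', hWe] with x b1 b2 b3 b4
    have b5 : (sob m).P ((1 + ϑ * s) * t / 2) (cl m u) x = U' x := b3
    have b6 : (sob m).P (t / 2) (cl m u) x = U x := b2
    have b7 : (sob m).P (t / 2) h₁ x = W x := b4
    rw [b5, b6, b7] at b1
    have e2 : U x + s * (ϑ * w x) = U x + ϑ * s * (t / 2) * W x := by simp only [hw]; ring
    have e3 : |κ| * (ϑ * t / 2) ^ 2 * (s : ℝ) ^ 2 = |κ| * (ϑ * s * (t / 2)) ^ 2 := by ring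
    show |U' x - (U x + s * (ϑ * w x))| ≤ |κ| * (ϑ * t / 2) ^ 2 * (s : ℝ) ^ 2
    rw [e2, e3]
    exact b1
  have hSI : LI m fun y => w y ^ 2 / (4 * β) := by
    have hb : ∀ x, |w x ^ 2 / (4 * β)| ≤ (t / 2 * BW) ^ 2 / (4 * β) := fun x => by
      rw [abs_of_nonneg (by positivity)]
      have h3 := hWL.bd x
      have h4 : |w x| ≤ t / 2 * BW := by
        simp only [hw]
        rw [abs_mul, abs_of_pos ht2]
        gcongr
      have h5 : w x ^ 2 ≤ (t / 2 * BW) ^ 2 := by
        rw [← sq_abs]; exact pow_le_pow_left₀ (abs_nonneg _) h4 2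
      gcongr
    exact LI_of_bdd hN.fin (by
      have : Continuous fun y => w y ^ 2 / (4 * β) := by fun_prop
      exact this.aestronglyMeasurable) hb
  have key := stepE hN h hu hL2 ht hUL he hwc hT (S := fun y => w y ^ 2 / (4 * β)) hSI
    (fun y X hX => opt_rat hβ0 fun ϑ => hX ϑ (mem_univ _))
    (fun y X hX => by
      have := opt_rat (w := -w y) hβ0 fun ϑ => hX ϑ (mem_univ _)
      rwa [neg_sq] at this) hA hb hg hlg
  refine le_trans (le_of_eq ?_) key
  refine integral_congr_ae (ae_restrict_of_ae ?_)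
  filter_upwards [hWe] with y b6
  rw [b6]
  have e4 : 2 * (w y ^ 2 / (4 * β)) = t / (n * E) * W y ^ 2 := by
    simp only [hw, hβ]
    field_simp
    ring
  rw [e4]

end Vale.Agent.P233.N2.H994.RK

namespace Vale.Agent.P233.N2.RA

open Vale.Agent.P233.N2.H994.RK

/-- KA3 -/
theorem blk_KA3 : Blk_KA3.{u} := by
  intro M _ _ _ _ _ m n K θ hN h hB f h₁ h₂ hf1 hf2 hft h1t h2t t ht
  rcases isEmpty_or_nonempty M with hM | hM
  · rw [le_iff_ae]
    exact ae_of_all _ fun x => (hM.false x).elim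
  obtain ⟨x₀⟩ := hM
  haveI : SigmaFinite m := sigmaFinite_of_ball hN.fin
  have hD := hN.isDir
  have hn : (0 : ℝ) < n := by exact_mod_cast hN.n_pos
  have ht2 : 0 < t / 2 := by positivity
  have hW := hf1.1
  have h2 := hD.memLp _ hW
  have hΓt : MemLp ((sob m).Γ f f) ∞ m :=
    ((hN.isGamma.lip_iff _ hW).1 (reg_B hN hB hf1 hf2 hft h1t h2t)).2
  have hΓ2 : MemLp ((sob m).Γ f f) 2 m := hD.Γ_mem2 hW hΓt hW
  have hh2 : MemLp h₁ 2 m := hf1.2.1
  set E := Real.exp (max (-K) 0 * t) with hE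
  have hE0 : 0 < E := Real.exp_pos _
  have hQf : Q m t f ∈ (sob m).W := hD.P_mem ht2 h2
  -- the sequence of times
  set r : ℕ → ℝ := fun k => ((k : ℝ) + 1)⁻¹ with hr
  have hr0 : ∀ k, 0 < r k := fun k => by simp only [hr]; positivity
  have hrlim : Tendsto r atTop (𝓝 0) := tendsto_inv_nat
  have hPQ : ∀ (g : M →ₘ[m] ℝ), MemLp g 2 m → ∀ k, Q m t ((sob m).P (r k) g)
      = (sob m).P (r k) (Q m t g) := fun g hg k => hD.P_comm ht2.le (hr0 k).le hg
  have hnrm : Tendsto (fun k => (sob m).nrm2 (Q m t ((sob m).P (r k) f) - Q m t f)) atTop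
      (𝓝 0) := by
    have h3 := (hD.P_contW hQf 0).comp hrlim
    rw [hD.P_zero_time (hD.memLp _ hQf)] at h3
    refine h3.congr fun k => ?_
    simp only [Function.comp]
    rw [hPQ f h2 k]
  have hL2 : ∀ g : M →ₘ[m] ℝ, MemLp g 2 m →
      Tendsto (fun k => I (((sob m).P (r k) g - g) ^ 2)) atTop (𝓝 0) := by
    intro g hg
    have h3 := (hD.P_cont hg 0).comp hrlim
    rw [hD.P_zero_time hg] at h3
    exact h3
  set V : M → ℝ := fun y => Real.exp (K * t) * (sob m).Γ (Q m t f) (Q m t f) y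
    + t / (n * E) * Q m t h₁ y ^ 2 - Q m t ((sob m).Γ f f) y with hV
  have hΓQ1 : LI m ((sob m).Γ (Q m t f) (Q m t f)) := fun x r =>
    (int_of_mem (hD.mem1 _ hQf)).integrableOn
  have hQΓ : LI m (Q m t ((sob m).Γ f f)) := LI_of_mem2 hN (Q_mem2 hN t hΓ2)
  have hQh : LI m (fun y => Q m t h₁ y ^ 2) := fun x r =>
    (MemLp.integrable_sq (Q_mem2 hN t hh2)).integrableOn
  have hVI : LI m V := fun x r =>
    (((hΓQ1 x r).const_mul _).add ((hQh x r).const_mul _)).sub (hQΓ x r)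
  have key : ∀ k : ℕ, ∀ᵐ y ∂m, dist x₀ y ≤ k → V y ≤ 0 := by
    intro k
    refine ae_le_ball hN.fin hVI x₀ k 0 fun A hA h0 hs => ?_
    have hb : Bornology.IsBounded A := Metric.isBounded_closedBall.subset hs
    obtain ⟨q0, q1, q2, q3⟩ := Q_ind hN ht.le hA hb
    have hind1 : ∀ᵐ x ∂m, |ind m A x| ≤ 1 := by
      filter_upwards [ind_ae (m := m) hA] with x hx
      rw [hx]
      by_cases hxA : x ∈ A
      · simp [hxA]
      · simp [hxA]
    -- convergence of the data
    have l1 : Tendsto (fun j => I ((sob m).P (r j) ((sob m).Γ f f) * Q m t (ind m A))) atTop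
        (𝓝 (I ((sob m).Γ f f * Q m t (ind m A)))) :=
      tendsto_I_mul (fun j => hD.P_mem2 _ hΓ2) hΓ2 (fun _ => q2) q2 (hL2 _ hΓ2) (by simp [I_zero])
    have l2 : Tendsto (fun j => Real.exp (-(2 * K * r j))) atTop (𝓝 1) := by
      have hc : Continuous fun s : ℝ => Real.exp (-(2 * K * s)) := by fun_prop
      have := (hc.tendsto 0).comp hrlim
      rw [mul_zero, neg_zero, Real.exp_zero] at this
      exact this
    have hQh2 := Q_mem2 hN t hh2
    have hPQh : ∀ j, MemLp ((sob m).P (r j) (Q m t h₁)) 2 m := fun j => hD.P_mem2 _ hQh2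
    have l3 : Tendsto (fun j => I ((sob m).P (r j) (Q m t h₁) *
        (ind m A * (sob m).P (r j) (Q m t h₁)))) atTop
        (𝓝 (I (Q m t h₁ * (ind m A * Q m t h₁)))) :=
      tendsto_I_mul hPQh hQh2 (fun j => mem_mul_top (ind_memTop hA) (hPQh j))
        (mem_mul_top (ind_memTop hA) hQh2) (hL2 _ hQh2)
        (tendsto_bdd_mul hind1 hPQh hQh2 (hL2 _ hQh2))
    have e0 : ∀ a : M →ₘ[m] ℝ, I (a * (ind m A * a)) = ∫ y in A, a y ^ 2 ∂m := by
      intro a
      have : a * (ind m A * a) = a ^ 2 * ind m A := by ring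
      rw [this, I_mul_ind hA]
      refine integral_congr_ae (ae_restrict_of_ae ?_)
      filter_upwards [sq_ae a] with x hx using hx
    rw [e0] at l3
    simp only [e0] at l3
    set c : ℕ → ℝ := fun j => Real.exp (-(K * t)) *
      (Real.exp (-(2 * K * r j)) * I ((sob m).P (r j) ((sob m).Γ f f) * Q m t (ind m A))
        - t / (n * E) * ∫ y in A, (sob m).P (r j) (Q m t h₁) y ^ 2 ∂m) with hc
    have hclim : Tendsto c atTop (𝓝 (Real.exp (-(K * t)) *
        (1 * I ((sob m).Γ f f * Q m t (ind m A)) - t / (n * E) * ∫ y in A, Q m t h₁ y ^ 2 ∂m))) :=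
      ((l2.mul l1).sub (l3.const_mul _)).const_mul _
    have hQW : ∀ j, Q m t ((sob m).P (r j) f) ∈ (sob m).W := fun j =>
      hD.P_mem ht2 (hD.P_mem2 (r j) h2)
    have hlow := int_Γ_le hD hQW hQf hnrm (A := A)
      hclim fun j => ?_
    · have e4 : ∫ y in A, V y ∂m = Real.exp (K * t) * ∫ y in A, (sob m).Γ (Q m t f) (Q m t f) y ∂m
          + t / (n * E) * ∫ y in A, Q m t h₁ y ^ 2 ∂m
          - ∫ y in A, Q m t ((sob m).Γ f f) y ∂m := by
        rw [← integral_const_mul, ← integral_const_mul, ← integral_add, ← integral_sub]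
        · exact ((hΓQ1.on hb).const_mul _).add ((hQh.on hb).const_mul _)
        · exact hQΓ.on hb
        · exact (hΓQ1.on hb).const_mul _
        · exact (hQh.on hb).const_mul _
      have e3 : I ((sob m).Γ f f * Q m t (ind m A)) = ∫ y in A, Q m t ((sob m).Γ f f) y ∂m := by
        rw [← I_mul_ind hA, Q_symm hN t hΓ2 (ind_mem hA (fin_of_bdd hN hb) 2)]
      rw [e3, one_mul] at hlow
      rw [e4, zero_mul]
      have e5 := mul_le_mul_of_nonneg_left hlow (Real.exp_pos (K * t)).le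
      rw [← mul_assoc, ← Real.exp_add, add_neg_cancel, Real.exp_zero, one_mul] at e5
      linarith
    · -- the inequality for `P_r f`
      have g1 := hD.P_isLap_of (r j) hf1
      have g2 := hD.P_isLap_of (r j) hf2
      have g3 : MemLp ((sob m).P (r j) f) ∞ m := hD.P_memTop (hr0 j).le h2 hft
      have g4 : MemLp ((sob m).P (r j) h₁) ∞ m := hD.P_memTop (hr0 j).le hh2 h1t
      have g5 : MemLp ((sob m).P (r j) h₂) ∞ m := hD.P_memTop (hr0 j).le hf2.2.1 h2t
      obtain ⟨v, Bv, Lv, hv, hcl⟩ := exists_BL (reg_B hN hB g1 g2 g3 g4 g5)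
      obtain ⟨G, BG, LG, hG, hGe⟩ := rep_bdd hN hB hΓ2 hΓt (t := 2 * r j) (by
        have := hr0 j; positivity)
      have e6 : Q m (2 * r j) ((sob m).Γ f f) = (sob m).P (r j) ((sob m).Γ f f) := by
        show (sob m).P (2 * r j / 2) _ = _
        rw [mul_div_cancel_left₀ _ two_ne_zero]
      rw [e6] at hGe
      have hlip := lip_le_of_Γ hN hv (by rw [hcl]; exact g1.1)
        (G := fun x => Real.exp (-(2 * K * r j)) * G x) (continuous_const.mul hG.cont) (by
        have h5 := hN.isGamma.P_Γ_le_P hB (hr0 j).le hW hΓt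
        rw [le_iff_ae] at h5
        rw [hcl]
        filter_upwards [h5, smul_ae ((sob m).P (r j) ((sob m).Γ f f))
          (Real.exp (-(2 * K * r j))), hGe] with x a1 a2 a3
        rwa [a2, a3] at a1)
      have hgi : Integrable (fun x => Real.exp (-(2 * K * r j)) * G x * Q m t (ind m A) x) m := by
        have h6 := (int_bdd hG.cont.aestronglyMeasurable hG.bd q1).const_mul
          (Real.exp (-(2 * K * r j)))
        refine h6.congr (ae_of_all _ fun x => ?_)
        show _ * (_ * _) = _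
        ring
      have hcore := ka3_core hN h hB hv (by rw [hcl]; exact g1) g2 g4 g5 ht hA hb hgi
        (ae_of_all _ hlip)
      rw [hcl, ← hE] at hcore
      have e7 : ∫ x, Real.exp (-(2 * K * r j)) * G x * Q m t (ind m A) x ∂m
          = Real.exp (-(2 * K * r j)) *
            I ((sob m).P (r j) ((sob m).Γ f f) * Q m t (ind m A)) := by
        unfold I
        rw [← integral_const_mul]
        refine integral_congr_ae ?_
        filter_upwards [hGe, mul_ae ((sob m).P (r j) ((sob m).Γ f f)) (Q m t (ind m A))]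
          with x a1 a2
        rw [a2, a1]; ring
      rw [e7, hPQ h₁ hh2 j] at hcore
      have hW' : Q m t ((sob m).P (r j) f) ∈ (sob m).W := hD.P_mem ht2 (hD.P_mem2 (r j) h2)
      have i1 : IntegrableOn (fun y => Real.exp (K * t) *
          (sob m).Γ (Q m t ((sob m).P (r j) f)) (Q m t ((sob m).P (r j) f)) y) A m :=
        ((int_of_mem (hD.mem1 _ hW')).const_mul _).integrableOn
      have i2 : IntegrableOn (fun y => t / (n * E) * (sob m).P (r j) (Q m t h₁) y ^ 2) A m :=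
        ((MemLp.integrable_sq (hPQh j)).const_mul _).integrableOn
      rw [integral_add i1 i2, integral_const_mul, integral_const_mul] at hcore
      simp only [hc]
      have e2 : Real.exp (-(K * t)) = (Real.exp (K * t))⁻¹ := Real.exp_neg _
      rw [e2, inv_mul_eq_div, le_div_iff₀' (Real.exp_pos _)]
      linarith
  rw [le_iff_ae]
  filter_upwards [ae_all_iff.2 key, smul_ae ((sob m).Γ (Q m t f) (Q m t f)) (Real.exp (K * t)),
    add_ae (Real.exp (K * t) • (sob m).Γ (Q m t f) (Q m t f))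
      ((t / (n * E)) • (Q m t h₁) ^ 2), smul_ae ((Q m t h₁) ^ 2) (t / (n * E)), sq_ae (Q m t h₁)]
    with y hy b2 b3 b4 b5
  obtain ⟨k, hk⟩ := exists_nat_gt (dist x₀ y)
  have := hy k hk.le
  simp only [hV] at this
  rw [b3, b2, b4, b5]
  linarith

end Vale.Agent.P233.N2.RA
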