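import Vale.Agent.P233.N2.H994.RK1

/-! P233, RCDA, part K (helper994): Lipschitz representatives from averages. -/

set_option linter.all false

open MeasureTheory Filter Topology Set
open scoped ENNReal NNReal MeasureTheory

universe u

namespace Vale.Agent.P233.N2.H994.RK

open Vale.Agent.P233.N2.RA

variable {M : Type u} [MetricSpace M] [MeasurableSpace M] [BorelSpace M] {m : Measure M}

/-- locally integrable -/
def LI (m : Measure M) (v : M → ℝ) : Prop := ∀ (x : M) (r : ℝ), IntegrableOn v (Metric.closedBall x r) m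

theorem LI.on {v : M → ℝ} (hv : LI m v) {A : Set M} (hA : Bornology.IsBounded A) :
    IntegrableOn v A m := by
  by_cases h : A.Nonempty
  · obtain ⟨x, hx⟩ := h
    obtain ⟨r, hr⟩ := hA.subset_closedBall x
    exact (hv x r).mono_set hr
  · rw [not_nonempty_iff_eq_empty.1 h]; exact integrableOn_empty

/-- from integrals over small sets to almost every point -/
theorem ae_le_ball {v : M → ℝ} (hfin : ∀ (x : M) (r : ℝ), m (Metric.ball x r) < ∞)
    (hv : LI m v) (x : M) (D c : ℝ)
    (h : ∀ A : Set M, MeasurableSet A → m A ≠ 0 → A ⊆ Metric.closedBall x D →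
      ∫ y in A, v y ∂m ≤ c * (m A).toReal) : ∀ᵐ y ∂m, dist x y ≤ D → v y ≤ c := by
  have hcb : m (Metric.closedBall x D) < ∞ :=
    (measure_mono (Metric.closedBall_subset_ball (by linarith : D < D + 1))).trans_lt (hfin x _)
  haveI : IsFiniteMeasure (m.restrict (Metric.closedBall x D)) := ⟨by
    rw [Measure.restrict_apply_univ]; exact hcb⟩
  have key : v ≤ᵐ[m.restrict (Metric.closedBall x D)] fun _ => c := by
    refine ae_le_of_forall_setIntegral_le (hv x D) (integrable_const c) fun s hs _ => ?_
    rw [Measure.restrict_restrict hs]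
    by_cases h0 : m (s ∩ Metric.closedBall x D) = 0
    · rw [Measure.restrict_eq_zero.2 h0]; simp
    · refine (h _ (hs.inter Metric.isClosed_closedBall.measurableSet) h0 inter_subset_right).trans ?_
      rw [setIntegral_const, Measure.real, smul_eq_mul, mul_comm]
  have h2 := (ae_restrict_iff' Metric.isClosed_closedBall.measurableSet).1 key
  filter_upwards [h2] with y hy hxy
  exact hy (by rw [Metric.mem_closedBall, dist_comm]; exact hxy)

theorem ae_ge_ball {v : M → ℝ} (hfin : ∀ (x : M) (r : ℝ), m (Metric.ball x r) < ∞)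
    (hv : LI m v) (x : M) (D c : ℝ)
    (h : ∀ A : Set M, MeasurableSet A → m A ≠ 0 → A ⊆ Metric.closedBall x D →
      c * (m A).toReal ≤ ∫ y in A, v y ∂m) : ∀ᵐ y ∂m, dist x y ≤ D → c ≤ v y := by
  have h1 := ae_le_ball hfin (v := fun y => -v y) (fun x r => (hv x r).neg) x D (-c)
    fun A hA h0 hs => by
      rw [integral_neg]
      have := h A hA h0 hs
      linarith
  filter_upwards [h1] with y hy hxy
  linarith [hy hxy]

theorem tendsto_inv_nat : Tendsto (fun k : ℕ => ((k : ℝ) + 1)⁻¹) atTop (𝓝 0) := by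
  have := tendsto_one_div_add_atTop_nhds_zero_nat (𝕜 := ℝ)
  simpa [one_div] using this

/-- a function whose averages over small sets are close has a Lipschitz representative -/
theorem exists_rep [SecondCountableTopology M]
    (hfull : m.IsOpenPosMeasure) (hfin : ∀ (x : M) (r : ℝ), m (Metric.ball x r) < ∞)
    {u : M → ℝ} (hu : LI m u) {L : ℝ} (hL : 0 ≤ L)
    (h : ∀ A A' : Set M, MeasurableSet A → MeasurableSet A' → m A ≠ 0 → m A' ≠ 0 →
      Bornology.IsBounded A → Bornology.IsBounded A' → ∀ D : ℝ, 0 ≤ D →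
      (∀ x ∈ A, ∀ y ∈ A', dist x y ≤ D) →
      (∫ x in A', u x ∂m) / (m A').toReal - (∫ x in A, u x ∂m) / (m A).toReal ≤ L * D) :
    ∃ U : M → ℝ, (∀ x y, |U x - U y| ≤ L * dist x y) ∧ u =ᵐ[m] U := by
  have hpos : ∀ (x : M) {r : ℝ}, 0 < r → m (Metric.ball x r) ≠ 0 := fun x r hr =>
    (Metric.measure_ball_pos m x hr).ne'
  set av : M → ℝ → ℝ := fun x r => (∫ y in Metric.ball x r, u y ∂m) / (m (Metric.ball x r)).toReal
    with hav
  have hav1 : ∀ x y r r', 0 < r → 0 < r' → av y r' - av x r ≤ L * (dist x y + r + r') := by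
    intro x y r r' hr hr'
    refine h _ _ measurableSet_ball measurableSet_ball (hpos x hr) (hpos y hr') Metric.isBounded_ball
      Metric.isBounded_ball _ (by positivity) fun a ha b hb => ?_
    have h1 : dist a b ≤ dist a x + dist x y + dist y b := dist_triangle4 _ _ _ _
    rw [Metric.mem_ball] at ha hb
    rw [dist_comm] at hb
    linarith
  set e : ℕ → ℝ := fun k => ((k : ℝ) + 1)⁻¹ with he
  have he0 : ∀ k, 0 < e k := fun k => by rw [he]; positivity
  have hanti : ∀ {i j : ℕ}, i ≤ j → e j ≤ e i := fun {i j} hij => by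
    simp only [he]
    have : (i : ℝ) ≤ j := by exact_mod_cast hij
    gcongr
  have hc : ∀ x, CauchySeq fun k => av x (e k) := by
    intro x
    refine cauchySeq_of_le_tendsto_0 (fun k => L * (e k + e k)) (fun i j k hi hj => ?_) ?_
    · have h1 := hav1 x x (e i) (e j) (he0 i) (he0 j)
      have h2 := hav1 x x (e j) (e i) (he0 j) (he0 i)
      rw [dist_self] at h1 h2
      have h3 := hanti hi
      have h4 := hanti hj
      rw [Real.dist_eq, abs_le]
      constructor <;> nlinarith
    · have := (tendsto_inv_nat.add tendsto_inv_nat).const_mul L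
      simpa using this
  choose U hU using fun x => cauchySeq_tendsto_of_complete (hc x)
  have hup : ∀ (x : M) (A : Set M) (D : ℝ), MeasurableSet A → m A ≠ 0 →
      A ⊆ Metric.closedBall x D → ∫ y in A, u y ∂m ≤ (U x + L * D) * (m A).toReal := by
    intro x A D hA h0 hs
    have hne : A.Nonempty := by
      by_contra hcon
      rw [not_nonempty_iff_eq_empty] at hcon
      exact h0 (by rw [hcon]; simp)
    have hb : Bornology.IsBounded A := Metric.isBounded_closedBall.subset hs
    have hD : 0 ≤ D := by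
      obtain ⟨a, ha⟩ := hne
      have := hs ha
      rw [Metric.mem_closedBall] at this
      exact dist_nonneg.trans this
    have hma : 0 < (m A).toReal := ENNReal.toReal_pos h0
      ((measure_mono (hs.trans (Metric.closedBall_subset_ball (by linarith : D < D + 1)))).trans_lt
        (hfin x _)).ne
    have h1 : ∀ k, (∫ y in A, u y ∂m) / (m A).toReal - av x (e k) ≤ L * (D + e k) := by
      intro k
      refine h _ _ measurableSet_ball hA (hpos x (he0 k)) h0 Metric.isBounded_ball hb _
        (by have := he0 k; positivity) fun a ha b hb => ?_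
      have h1 := hs hb
      rw [Metric.mem_ball] at ha
      rw [Metric.mem_closedBall, dist_comm] at h1
      have := dist_triangle a x b
      linarith
    have h2 : (∫ y in A, u y ∂m) / (m A).toReal - U x ≤ L * (D + 0) :=
      le_of_tendsto_of_tendsto' (tendsto_const_nhds.sub (hU x))
        ((tendsto_const_nhds.add tendsto_inv_nat).const_mul L) h1
    rw [add_zero] at h2
    rw [← div_le_iff₀ hma]
    linarith
  have hlo : ∀ (x : M) (A : Set M) (D : ℝ), MeasurableSet A → m A ≠ 0 →
      A ⊆ Metric.closedBall x D → (U x - L * D) * (m A).toReal ≤ ∫ y in A, u y ∂m := by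
    intro x A D hA h0 hs
    have hne : A.Nonempty := by
      by_contra hcon
      rw [not_nonempty_iff_eq_empty] at hcon
      exact h0 (by rw [hcon]; simp)
    have hb : Bornology.IsBounded A := Metric.isBounded_closedBall.subset hs
    have hD : 0 ≤ D := by
      obtain ⟨a, ha⟩ := hne
      have := hs ha
      rw [Metric.mem_closedBall] at this
      exact dist_nonneg.trans this
    have hma : 0 < (m A).toReal := ENNReal.toReal_pos h0
      ((measure_mono (hs.trans (Metric.closedBall_subset_ball (by linarith : D < D + 1)))).trans_lt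
        (hfin x _)).ne
    have h1 : ∀ k, av x (e k) - (∫ y in A, u y ∂m) / (m A).toReal ≤ L * (D + e k) := by
      intro k
      refine h _ _ hA measurableSet_ball h0 (hpos x (he0 k)) hb Metric.isBounded_ball _
        (by have := he0 k; positivity) fun b hb a ha => ?_
      have h1 := hs hb
      rw [Metric.mem_ball, dist_comm] at ha
      rw [Metric.mem_closedBall] at h1
      have := dist_triangle b x a
      linarith
    have h2 : U x - (∫ y in A, u y ∂m) / (m A).toReal ≤ L * (D + 0) :=
      le_of_tendsto_of_tendsto' ((hU x).sub tendsto_const_nhds)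
        ((tendsto_const_nhds.add tendsto_inv_nat).const_mul L) h1
    rw [add_zero] at h2
    rw [← le_div_iff₀ hma]
    linarith
  have hUL : ∀ x y, U y - U x ≤ L * dist x y := by
    intro x y
    have h1 : ∀ k, av y (e k) - U x ≤ L * (dist x y + e k) := by
      intro k
      have h2 := hup x (Metric.ball y (e k)) (dist x y + e k) measurableSet_ball (hpos y (he0 k))
        (fun b hb => by
          rw [Metric.mem_ball] at hb
          rw [Metric.mem_closedBall]
          have := dist_triangle b y x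
          rw [dist_comm y x] at this
          linarith)
      have hma : 0 < (m (Metric.ball y (e k))).toReal :=
        ENNReal.toReal_pos (hpos y (he0 k)) (hfin y _).ne
      rw [← div_le_iff₀ hma] at h2
      show (∫ z in Metric.ball y (e k), u z ∂m) / (m (Metric.ball y (e k))).toReal - U x ≤ _
      linarith
    have h2 := le_of_tendsto_of_tendsto' ((hU y).sub tendsto_const_nhds)
      ((tendsto_const_nhds.add tendsto_inv_nat).const_mul L) h1
    simpa using h2
  refine ⟨U, fun x y => ?_, ?_⟩
  · rw [abs_le]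
    have h1 := hUL x y
    have h2 := hUL y x
    rw [dist_comm] at h2
    constructor <;> linarith
  · rcases isEmpty_or_nonempty M with hM | hM
    · exact ae_of_all _ fun x => (hM.false x).elim
    have h1 : ∀ i j : ℕ, ∀ᵐ y ∂m, dist (TopologicalSpace.denseSeq M i) y ≤ e j →
        u y ≤ U (TopologicalSpace.denseSeq M i) + L * e j := fun i j =>
      ae_le_ball hfin hu _ _ _ fun A hA h0 hs => hup _ A _ hA h0 hs
    have h2 : ∀ i j : ℕ, ∀ᵐ y ∂m, dist (TopologicalSpace.denseSeq M i) y ≤ e j →
        U (TopologicalSpace.denseSeq M i) - L * e j ≤ u y := fun i j =>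
      ae_ge_ball hfin hu _ _ _ fun A hA h0 hs => hlo _ A _ hA h0 hs
    filter_upwards [ae_all_iff.2 fun i => ae_all_iff.2 (h1 i),
      ae_all_iff.2 fun i => ae_all_iff.2 (h2 i)] with y g1 g2
    have g3 : ∀ j : ℕ, |u y - U y| ≤ 2 * L * e j := by
      intro j
      obtain ⟨i, hi⟩ := (TopologicalSpace.denseRange_denseSeq M).exists_dist_lt y (he0 j)
      rw [dist_comm] at hi
      have a1 := g1 i j hi.le
      have a2 := g2 i j hi.le
      have a3 := hUL y (TopologicalSpace.denseSeq M i)
      have a4 := hUL (TopologicalSpace.denseSeq M i) y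
      rw [dist_comm] at a3
      have a5 : L * dist (TopologicalSpace.denseSeq M i) y ≤ L * e j := by gcongr
      rw [abs_le]
      constructor <;> linarith
    have g4 : |u y - U y| ≤ 2 * L * 0 :=
      ge_of_tendsto' (tendsto_inv_nat.const_mul (2 * L)) g3
    rw [mul_zero] at g4
    have g5 := abs_nonpos_iff.1 g4
    linarith

/-- elementary optimisation -/
theorem opt_ab {X a b : ℝ} (ha : 0 ≤ a) (hb : 0 ≤ b)
    (h : ∀ s : ℝ, 0 < s → X ≤ s * a ^ 2 / 2 + s⁻¹ * (b ^ 2 / 2)) : X ≤ a * b := by
  rcases ha.eq_or_lt with h0 | h0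
  · subst h0
    have h1 : Tendsto (fun s : ℝ => s * (0 : ℝ) ^ 2 / 2 + s⁻¹ * (b ^ 2 / 2)) atTop (𝓝 0) := by
      have := (tendsto_inv_atTop_zero (𝕜 := ℝ)).mul_const (b ^ 2 / 2)
      simpa using this
    have h2 := ge_of_tendsto h1 ((eventually_gt_atTop 0).mono fun s hs => h s hs)
    simpa using h2
  rcases hb.eq_or_lt with h1 | h1
  · subst h1
    have h2 : Tendsto (fun s : ℝ => s * a ^ 2 / 2 + s⁻¹ * ((0 : ℝ) ^ 2 / 2)) (𝓝[>] 0) (𝓝 0) := by
      have h3 : Tendsto (fun s : ℝ => s * a ^ 2 / 2) (𝓝[>] 0) (𝓝 (0 * a ^ 2 / 2)) :=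
        ((tendsto_id.mul_const _).div_const _).mono_left nhdsWithin_le_nhds
      simpa using h3
    have h4 := ge_of_tendsto h2 (eventually_mem_nhdsWithin.mono fun s hs => h s hs)
    simpa using h4
  have := h (b / a) (by positivity)
  have h2 : b / a * a ^ 2 / 2 + (b / a)⁻¹ * (b ^ 2 / 2) = a * b := by
    field_simp
    ring
  linarith

theorem Ci_one (K : ℝ) : Ci K 1 1 = -K := by
  unfold Ci
  rw [mul_one, Real.sqrt_one]
  ring

variable [SecondCountableTopology M] {n : ℕ} {K : ℝ} {θ : M → ℝ}

theorem LI_of_mem2 (hN : NSp m n K θ) {f : M →ₘ[m] ℝ} (hf : MemLp f 2 m) : LI m f := by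
  intro x r
  have hcb : m (Metric.closedBall x r) < ∞ :=
    (measure_mono (Metric.closedBall_subset_ball (by linarith : r < r + 1))).trans_lt (hN.fin x _)
  haveI : IsFiniteMeasure (m.restrict (Metric.closedBall x r)) := ⟨by
    rw [Measure.restrict_apply_univ]; exact hcb⟩
  exact ((hf.restrict (Metric.closedBall x r)).integrable (by norm_num))

/-- `∫_A Q_t f = ∫ f Q_t 1_A` -/
theorem int_Q (hN : NSp m n K θ) {A : Set M} (hA : MeasurableSet A) (hb : Bornology.IsBounded A)
    {f : M → ℝ} (hf : AEStronglyMeasurable f m) (h2 : MemLp (cl m f) 2 m) (t : ℝ) :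
    ∫ x in A, Q m t (cl m f) x ∂m = ∫ x, f x * Q m t (ind m A) x ∂m := by
  rw [← I_mul_ind hA, Q_symm hN t h2 (ind_mem hA (fin_of_bdd hN hb) 2)]
  unfold I
  refine integral_congr_ae ?_
  filter_upwards [mul_ae (cl m f) (Q m t (ind m A)), cl_ae hf] with x h1 h3
  rw [h1, h3]

/-- a bounded measurable function times an `L¹` function -/
theorem int_bdd {G : M → ℝ} (hG : AEStronglyMeasurable G m) {c : ℝ} (hc : ∀ x, |G x| ≤ c)
    {w : M →ₘ[m] ℝ} (hw : MemLp w 1 m) : Integrable (fun x => G x * w x) m :=
  (int_of_mem hw).bdd_mul hG (ae_of_all _ fun x => by rw [Real.norm_eq_abs]; exact hc x)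

/-- Step A: the Lipschitz representative of `Q_t f`. -/
theorem lip_rep (hN : NSp m n K θ) (h : K1S m n K) {f : M → ℝ} {B L : ℝ} (hf : H131.BL f B L)
    (h2 : MemLp (cl m f) 2 m) {t : ℝ} (ht : 0 < t) :
    ∃ U : M → ℝ, (∀ x y, |U x - U y| ≤ L * Real.exp (-(K * t) / 2) * dist x y) ∧
      Q m t (cl m f) =ᵐ[m] U := by
  haveI := hN.proper
  have hL := hf.L0
  have hfm : AEStronglyMeasurable f m := hf.cont.aestronglyMeasurable
  refine exists_rep hN.full hN.fin (LI_of_mem2 hN (Q_mem2 hN t h2)) (by positivity) ?_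
  intro A A' hA hA' h0 h0' hb hb' D hD hd
  rw [int_Q hN hA hb hfm h2, int_Q hN hA' hb' hfm h2, mul_assoc]
  have ha' : 0 < (m A').toReal := ENNReal.toReal_pos h0' (fin_of_bdd hN hb').ne
  refine opt_ab hL (by positivity) fun s hs => ?_
  have k1 := k1s hN h hf hA hA' h0 h0' hb hb' hD hd (p := 1) (q := 1) one_pos one_pos ht hs
  rw [one_mul, Ci_one, Real.sqrt_one, sub_self, zero_pow two_ne_zero, mul_zero, zero_mul, zero_mul,
    add_zero] at k1
  obtain ⟨q0, q1, q2, q3⟩ := Q_ind hN ht.le hA' hb'
  have hqm : AEStronglyMeasurable (H131.qq f s) m :=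
    (hf.qq hs.le).cont.aestronglyMeasurable
  have k2 : ∫ x, f x * Q m t (ind m A') x ∂m - ∫ x, H131.qq f s x * Q m t (ind m A') x ∂m
      ≤ s * L ^ 2 / 2 * (m A').toReal := by
    rw [← integral_sub (int_bdd hfm hf.bd q1) (int_bdd hqm (H131.abs_qq_le hf s) q1)]
    refine le_trans (integral_mono_ae ?_ ((int_of_mem q1).const_mul (s * L ^ 2 / 2)) ?_) ?_
    · exact (int_bdd hfm hf.bd q1).sub (int_bdd hqm (H131.abs_qq_le hf s) q1)
    · filter_upwards [nonneg_iff_ae.1 q0] with x hx
      have := H131.sub_qq_le hf hs.le x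
      show f x * _ - H131.qq f s x * _ ≤ _
      rw [← sub_mul]
      gcongr
    · rw [integral_const_mul]
      gcongr
      exact q3
  have k3 : (∫ x, f x * Q m t (ind m A') x ∂m) / (m A').toReal
      ≤ (∫ x, H131.qq f s x * Q m t (ind m A') x ∂m) / (m A').toReal + s * L ^ 2 / 2 := by
    rw [div_le_iff₀ ha', add_mul, div_mul_cancel₀ _ ha'.ne']
    linarith
  have k4 : s⁻¹ * (Real.exp (-K * t) * (D ^ 2 / 2))
      = s⁻¹ * ((Real.exp (-(K * t) / 2) * D) ^ 2 / 2) := by
    rw [mul_pow, ← Real.exp_nat_mul]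
    have : ((2 : ℕ) : ℝ) * (-(K * t) / 2) = -K * t := by push_cast; ring
    rw [this]
    ring
  rw [k4] at k1
  linarith

end Vale.Agent.P233.N2.H994.RK
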