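import Vale.Agent.P233.N2.H994.RK2

/-! P233, RCDA, part K (helper994): the heat flow on bounded functions, pointwise duality. -/

set_option linter.all false

open MeasureTheory Filter Topology Set
open scoped ENNReal NNReal MeasureTheory

universe u

namespace Vale.Agent.P233.N2.H994.RK

open Vale.Agent.P233.N2.RA

variable {M : Type u} [MetricSpace M] [MeasurableSpace M] [BorelSpace M] {m : Measure M}

/-- `N = Q_t G` for bounded `G` (dual form) -/
structure DU (m : Measure M) (t : ℝ) (G N : M → ℝ) : Prop where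
  meas : AEStronglyMeasurable N m
  bd : ∃ c : ℝ, ∀ x, |N x| ≤ c
  dual : ∀ A : Set M, MeasurableSet A → Bornology.IsBounded A →
    ∫ x in A, N x ∂m = ∫ x, G x * Q m t (ind m A) x ∂m

variable [SecondCountableTopology M] {n : ℕ} {K : ℝ} {θ : M → ℝ}

theorem LI_of_bdd (hfin : ∀ (x : M) (r : ℝ), m (Metric.ball x r) < ∞) {v : M → ℝ}
    (hv : AEStronglyMeasurable v m) {c : ℝ} (hc : ∀ x, |v x| ≤ c) : LI m v := by
  intro x r
  have hcb : m (Metric.closedBall x r) < ∞ :=
    (measure_mono (Metric.closedBall_subset_ball (by linarith : r < r + 1))).trans_lt (hfin x _)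
  haveI : IsFiniteMeasure (m.restrict (Metric.closedBall x r)) := ⟨by
    rw [Measure.restrict_apply_univ]; exact hcb⟩
  exact Integrable.of_bound hv.restrict c (ae_of_all _ fun x => by
    rw [Real.norm_eq_abs]; exact hc x)

theorem DU.LI {t : ℝ} {G N : M → ℝ} (hfin : ∀ (x : M) (r : ℝ), m (Metric.ball x r) < ∞)
    (h : DU m t G N) : LI m N := by
  obtain ⟨c, hc⟩ := h.bd
  exact LI_of_bdd hfin h.meas hc

theorem exists_DU (hN : NSp m n K θ) {t : ℝ} (ht : 0 ≤ t) {G : M → ℝ} (hG : Measurable G)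
    {c : ℝ} (h0 : ∀ x, 0 ≤ G x) (hc : ∀ x, G x ≤ c) :
    ∃ N : M → ℝ, DU m t G N ∧ (∀ x, 0 ≤ N x ∧ N x ≤ c) := by
  rcases isEmpty_or_nonempty M with hM | hM
  · refine ⟨fun _ => 0, ⟨aestronglyMeasurable_const, ⟨0, fun x => (hM.false x).elim⟩,
      fun A hA hb => ?_⟩, fun x => (hM.false x).elim⟩
    have : m = 0 := Measure.eq_zero_of_isEmpty m
    subst this
    simp
  obtain ⟨x₀⟩ := hM
  have hc0 : 0 ≤ c := (h0 x₀).trans (hc x₀)
  -- truncations
  set Gk : ℕ → M → ℝ := fun k => (Metric.ball x₀ (k : ℝ)).indicator G with hGk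
  have hGm : ∀ k, Measurable (Gk k) := fun k => hG.indicator measurableSet_ball
  have hG0 : ∀ k x, 0 ≤ Gk k x := fun k x => indicator_nonneg (fun y _ => h0 y) x
  have hGc : ∀ k x, Gk k x ≤ c := fun k x => by
    rw [hGk]; exact (indicator_le_self' (fun y _ => h0 y) x).trans (hc x)
  have hGl : ∀ x, Tendsto (fun k => Gk k x) atTop (𝓝 (G x)) := by
    intro x
    refine tendsto_const_nhds.congr' ?_
    obtain ⟨k₀, hk₀⟩ := exists_nat_gt (dist x x₀)
    filter_upwards [eventually_ge_atTop k₀] with k hk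
    have : x ∈ Metric.ball x₀ (k : ℝ) := by
      rw [Metric.mem_ball]
      have : (k₀ : ℝ) ≤ k := by exact_mod_cast hk
      linarith
    simp only [hGk]
    rw [indicator_of_mem this]
  have hGmono : ∀ k x, Gk k x ≤ Gk (k + 1) x := by
    intro k x
    simp only [hGk]
    refine indicator_le_indicator_of_subset (Metric.ball_subset_ball (by push_cast; linarith))
      (fun y => h0 y) x
  have hcl2 : ∀ k, MemLp (cl m (Gk k)) 2 m := by
    intro k
    refine (memLp_congr_ae (cl_ae (hGm k).aestronglyMeasurable)).2 ?_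
    have h1 : MemLp ((Metric.ball x₀ (k : ℝ)).indicator fun _ => c) 2 m :=
      memLp_indicator_const 2 measurableSet_ball c (Or.inr (hN.fin x₀ _).ne)
    refine h1.mono (hGm k).aestronglyMeasurable (ae_of_all _ fun x => ?_)
    simp only [hGk]
    by_cases hx : x ∈ Metric.ball x₀ (k : ℝ)
    · rw [indicator_of_mem hx, indicator_of_mem hx, Real.norm_of_nonneg (h0 x),
        Real.norm_of_nonneg hc0]
      exact hc x
    · rw [indicator_of_notMem hx, indicator_of_notMem hx]
  have hcl0 : ∀ k, 0 ≤ cl m (Gk k) := fun k => by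
    rw [nonneg_iff_ae]
    filter_upwards [cl_ae (hGm k).aestronglyMeasurable (m := m)] with x hx
    rw [hx]; exact hG0 k x
  have hQ0 : ∀ k, ∀ᵐ x ∂m, 0 ≤ Q m t (cl m (Gk k)) x := fun k =>
    nonneg_iff_ae.1 (Q_nonneg hN ht (hcl2 k) (hcl0 k))
  have hQc : ∀ k, ∀ᵐ x ∂m, Q m t (cl m (Gk k)) x ≤ c := fun k =>
    hN.isDir.P_le (by positivity) (hcl2 k) hc0 (by
      filter_upwards [cl_ae (hGm k).aestronglyMeasurable (m := m)] with x hx
      rw [hx]; exact hGc k x)
  have hQm : ∀ k, ∀ᵐ x ∂m, Q m t (cl m (Gk k)) x ≤ Q m t (cl m (Gk (k + 1))) x := fun k => by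
    have h1 := hN.isDir.P_mono (t := t / 2) (by positivity) (hcl2 k) (hcl2 (k + 1)) (by
      rw [le_iff_ae]
      filter_upwards [cl_ae (hGm k).aestronglyMeasurable (m := m),
        cl_ae (hGm (k + 1)).aestronglyMeasurable (m := m)] with x hx hx'
      rw [hx, hx']; exact hGmono k x)
    exact le_iff_ae.1 h1
  set F : ℕ → M → ℝ := fun k x => min c (max 0 (Q m t (cl m (Gk k)) x)) with hF
  have hFm : ∀ k, Measurable (F k) := fun k => by
    have : Measurable (fun x => Q m t (cl m (Gk k)) x) := (AEEqFun.measurable _)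
    exact measurable_const.min (measurable_const.max this)
  have hF0 : ∀ k x, 0 ≤ F k x := fun k x => le_min hc0 (le_max_left _ _)
  have hFc : ∀ k x, F k x ≤ c := fun k x => min_le_left _ _
  have hbdd : ∀ x, BddAbove (range fun k => F k x) := fun x => ⟨c, by
    rintro _ ⟨k, rfl⟩; exact hFc k x⟩
  set N : M → ℝ := fun x => ⨆ k, F k x with hNdef
  have hNm : Measurable N := Measurable.iSup hFm
  have hN0 : ∀ x, 0 ≤ N x ∧ N x ≤ c := fun x =>
    ⟨(hF0 0 x).trans (le_ciSup (hbdd x) 0), ciSup_le fun k => hFc k x⟩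
  have hNl : ∀ᵐ x ∂m, Tendsto (fun k => Q m t (cl m (Gk k)) x) atTop (𝓝 (N x)) := by
    filter_upwards [ae_all_iff.2 hQ0, ae_all_iff.2 hQc, ae_all_iff.2 hQm] with x a1 a2 a3
    have h1 : ∀ k, F k x = Q m t (cl m (Gk k)) x := fun k => by
      simp only [hF]
      rw [max_eq_right (a1 k), min_eq_right (a2 k)]
    have h2 : Monotone fun k => F k x := monotone_nat_of_le_succ fun k => by
      simp only [h1]; exact a3 k
    have h3 : Tendsto (fun k => F k x) atTop (𝓝 (N x)) := tendsto_atTop_ciSup h2 (hbdd x)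
    exact h3.congr h1
  refine ⟨N, ⟨hNm.aestronglyMeasurable, ⟨c, fun x => ?_⟩, fun A hA hb => ?_⟩, hN0⟩
  · rw [abs_of_nonneg (hN0 x).1]; exact (hN0 x).2
  obtain ⟨q0, q1, q2, q3⟩ := Q_ind hN ht hA hb
  have hAf := fin_of_bdd hN hb
  haveI : IsFiniteMeasure (m.restrict A) := ⟨by rw [Measure.restrict_apply_univ]; exact hAf⟩
  have l1 : Tendsto (fun k => ∫ x in A, Q m t (cl m (Gk k)) x ∂m) atTop (𝓝 (∫ x in A, N x ∂m)) := by
    refine tendsto_integral_of_dominated_convergence (fun _ => c)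
      (fun k => (AEEqFun.aestronglyMeasurable _).restrict) (integrable_const c) (fun k => ?_)
      (ae_restrict_of_ae hNl)
    filter_upwards [ae_restrict_of_ae (s := A) (hQ0 k), ae_restrict_of_ae (s := A) (hQc k)]
      with x a1 a2
    rw [Real.norm_of_nonneg a1]; exact a2
  have l2 : Tendsto (fun k => ∫ x, Gk k x * Q m t (ind m A) x ∂m) atTop
      (𝓝 (∫ x, G x * Q m t (ind m A) x ∂m)) := by
    refine tendsto_integral_of_dominated_convergence (fun x => c * |Q m t (ind m A) x|)
      (fun k => ((hGm k).aestronglyMeasurable.mul (AEEqFun.aestronglyMeasurable _)))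
      ((int_of_mem q1).abs.const_mul c) (fun k => ae_of_all _ fun x => ?_)
      (ae_of_all _ fun x => (hGl x).mul_const _)
    rw [norm_mul, Real.norm_of_nonneg (hG0 k x), Real.norm_eq_abs]
    exact mul_le_mul_of_nonneg_right (hGc k x) (abs_nonneg _)
  have l3 : (fun k => ∫ x in A, Q m t (cl m (Gk k)) x ∂m)
      = fun k => ∫ x, Gk k x * Q m t (ind m A) x ∂m := by
    funext k
    exact int_Q hN hA hb (hGm k).aestronglyMeasurable (hcl2 k) t
  rw [l3] at l1
  exact tendsto_nhds_unique l1 l2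

/-- monotonicity -/
theorem DU.mono (hN : NSp m n K θ) {t : ℝ} (ht : 0 ≤ t) {G G' N N' : M → ℝ} (h : DU m t G N)
    (h' : DU m t G' N') (hG : AEStronglyMeasurable G m) (hG' : AEStronglyMeasurable G' m)
    {c : ℝ} (hc : ∀ x, |G x| ≤ c) (hc' : ∀ x, |G' x| ≤ c) (hle : ∀ x, G x ≤ G' x) :
    ∀ᵐ x ∂m, N x ≤ N' x := by
  rcases isEmpty_or_nonempty M with hM | hM
  · exact ae_of_all _ fun x => (hM.false x).elim
  obtain ⟨x₀⟩ := hM
  have h1 : ∀ k : ℕ, ∀ᵐ y ∂m, dist x₀ y ≤ k → N y - N' y ≤ 0 := by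
    intro k
    refine ae_le_ball hN.fin (v := fun y => N y - N' y)
      (fun x r => (h.LI hN.fin x r).sub (h'.LI hN.fin x r)) x₀ k 0 fun A hA h0 hs => ?_
    have hb : Bornology.IsBounded A := Metric.isBounded_closedBall.subset hs
    obtain ⟨q0, q1, q2, q3⟩ := Q_ind hN ht hA hb
    rw [integral_sub ((h.LI hN.fin).on hb) ((h'.LI hN.fin).on hb), h.dual A hA hb, h'.dual A hA hb,
      ← integral_sub (int_bdd hG hc q1) (int_bdd hG' hc' q1), zero_mul]
    refine integral_nonpos_of_ae ?_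
    filter_upwards [nonneg_iff_ae.1 q0] with x hx
    show G x * _ - G' x * _ ≤ 0
    rw [← sub_mul]
    exact mul_nonpos_of_nonpos_of_nonneg (by linarith [hle x]) hx
  filter_upwards [ae_all_iff.2 h1] with y hy
  obtain ⟨k, hk⟩ := exists_nat_gt (dist x₀ y)
  linarith [hy k hk.le]

/-- Step B: the pointwise form of the duality, the exceptional set is for `y` only. -/
theorem stepB (hN : NSp m n K θ) (h : K1S m n K) {f : M → ℝ} {B L : ℝ} (hf : H131.BL f B L)
    (h2 : MemLp (cl m f) 2 m) {p t s : ℝ} (hp : 0 < p) (ht : 0 < t) (hs : 0 < s)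
    {G N : M → ℝ} (hG : ∀ x, H131.qq f s x = f x - s * G x) (hGm : AEStronglyMeasurable G m)
    (hGb : ∃ c, ∀ x, |G x| ≤ c) (hDU : DU m t G N) {U : M → ℝ} {L' : ℝ}
    (hL' : 0 ≤ L') (hU : ∀ x y, |U x - U y| ≤ L' * dist x y)
    (hUe : Q m (p * t) (cl m f) =ᵐ[m] U) :
    ∀ᵐ y ∂m, ∀ x, Q m t (cl m f) y - s * N y ≤ U x +
      s⁻¹ * (Real.exp (Ci K p 1 * t) * (dist x y ^ 2 / 2)
        + n / 2 * (√p - 1) ^ 2 * t * Real.exp (max (Ci K p 1) 0 * t)) := by
  haveI := hN.proper
  obtain ⟨cG, hcG⟩ := hGb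
  have hfm : AEStronglyMeasurable f m := hf.cont.aestronglyMeasurable
  rcases isEmpty_or_nonempty M with hM | hM
  · exact ae_of_all _ fun x => (hM.false x).elim
  set E := Real.exp (Ci K p 1 * t) with hE
  have hE0 : 0 < E := Real.exp_pos _
  set c₀ := n / 2 * (√p - 1) ^ 2 * t * Real.exp (max (Ci K p 1) 0 * t) with hc₀
  have hUc : Continuous U := by
    have hL0 : ∀ x y, dist (U x) (U y) ≤ L' * dist x y := fun x y => by
      rw [Real.dist_eq]
      exact hU x y
    exact (LipschitzWith.of_dist_le_mul (K := ⟨L', hL'⟩) hL0).continuous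
  have hvLI : LI m fun y => Q m t (cl m f) y - s * N y := fun x r =>
    (LI_of_mem2 hN (Q_mem2 hN t h2) x r).sub ((hDU.LI hN.fin x r).const_mul s)
  -- fixed x and D
  have key : ∀ (x : M) (D : ℝ), 0 ≤ D → ∀ᵐ y ∂m, dist x y ≤ D →
      Q m t (cl m f) y - s * N y ≤ U x + s⁻¹ * (E * (D ^ 2 / 2) + c₀) := by
    intro x D hD
    refine ae_le_ball hN.fin hvLI x D _ fun A' hA' h0' hs' => ?_
    have hb' : Bornology.IsBounded A' := Metric.isBounded_closedBall.subset hs'
    have ha' : 0 < (m A').toReal := ENNReal.toReal_pos h0' (fin_of_bdd hN hb').ne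
    obtain ⟨q0, q1, q2, q3⟩ := Q_ind hN ht.le hA' hb'
    have e1 : ∫ y in A', (Q m t (cl m f) y - s * N y) ∂m
        = ∫ y, H131.qq f s y * Q m t (ind m A') y ∂m := by
      rw [integral_sub ((LI_of_mem2 hN (Q_mem2 hN t h2)).on hb')
        (((hDU.LI hN.fin).on hb').const_mul s), integral_const_mul, hDU.dual A' hA' hb',
        int_Q hN hA' hb' hfm h2, ← integral_const_mul,
        ← integral_sub (int_bdd hfm hf.bd q1) ((int_bdd hGm hcG q1).const_mul s)]
      refine integral_congr_ae (ae_of_all _ fun y => ?_)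
      simp only [hG]
      ring
    have e2 : ∀ r : ℝ, 0 < r → (∫ y in A', (Q m t (cl m f) y - s * N y) ∂m) / (m A').toReal ≤
        U x + L' * r + s⁻¹ * (E * ((D + r) ^ 2 / 2) + c₀) := by
      intro r hr
      have hbr : m (Metric.ball x r) ≠ 0 := by
        haveI := hN.full
        exact (Metric.measure_ball_pos m x hr).ne'
      have hbr' : 0 < (m (Metric.ball x r)).toReal := ENNReal.toReal_pos hbr (hN.fin x r).ne
      have k1 := k1s hN h hf measurableSet_ball hA' hbr h0' Metric.isBounded_ball hb'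
        (D := D + r) (by positivity) (fun a ha b hb => by
          have h1 := hs' hb
          rw [Metric.mem_ball] at ha
          rw [Metric.mem_closedBall, dist_comm] at h1
          have := dist_triangle a x b
          linarith) hp one_pos ht hs
      rw [one_mul, Real.sqrt_one, ← int_Q hN measurableSet_ball Metric.isBounded_ball hfm h2,
        ← e1, ← hE, ← hc₀] at k1
      have k2 : (∫ z in Metric.ball x r, Q m (p * t) (cl m f) z ∂m)
          ≤ (U x + L' * r) * (m (Metric.ball x r)).toReal := by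
        have k3 : ∫ z in Metric.ball x r, Q m (p * t) (cl m f) z ∂m
            = ∫ z in Metric.ball x r, U z ∂m :=
          integral_congr_ae (ae_restrict_of_ae hUe)
        rw [k3]
        have hUi : IntegrableOn U (Metric.ball x r) m := by
          have := (LI_of_mem2 hN (Q_mem2 hN (p * t) h2)).on (Metric.isBounded_ball (x := x) (r := r))
          exact this.congr (ae_restrict_of_ae hUe)
        have k4 : ∫ z in Metric.ball x r, U z ∂m ≤ ∫ z in Metric.ball x r, (U x + L' * r) ∂m := by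
          refine setIntegral_mono_on hUi (integrableOn_const (hN.fin x r).ne) measurableSet_ball
            fun z hz => ?_
          rw [Metric.mem_ball] at hz
          have h1 := (abs_le.1 (hU z x)).2
          nlinarith
        rw [setIntegral_const, Measure.real, smul_eq_mul, mul_comm] at k4
        exact k4
      have k5 : (∫ z in Metric.ball x r, Q m (p * t) (cl m f) z ∂m) / (m (Metric.ball x r)).toReal
          ≤ U x + L' * r := by
        rw [div_le_iff₀ hbr']; exact k2
      linarith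
    have e3 : (∫ y in A', (Q m t (cl m f) y - s * N y) ∂m) / (m A').toReal ≤
        U x + L' * 0 + s⁻¹ * (E * ((D + 0) ^ 2 / 2) + c₀) := by
      have hcont : Continuous fun r : ℝ => U x + L' * r + s⁻¹ * (E * ((D + r) ^ 2 / 2) + c₀) := by
        fun_prop
      exact ge_of_tendsto ((hcont.tendsto 0).mono_left nhdsWithin_le_nhds)
        (eventually_mem_nhdsWithin.mono fun r (hr : r ∈ Ioi (0 : ℝ)) => e2 r hr)
    rw [mul_zero, add_zero, add_zero, div_le_iff₀ ha'] at e3
    exact e3
  have key2 : ∀ i : ℕ, ∀ D : {D : ℚ // 0 ≤ D}, ∀ᵐ y ∂m,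
      dist (TopologicalSpace.denseSeq M i) y ≤ D.1 →
      Q m t (cl m f) y - s * N y ≤ U (TopologicalSpace.denseSeq M i)
        + s⁻¹ * (E * ((D.1 : ℝ) ^ 2 / 2) + c₀) := fun i D =>
    key _ D.1 (by exact_mod_cast D.2)
  filter_upwards [ae_all_iff.2 fun i => ae_all_iff.2 (key2 i)] with y hy x
  have hcl : IsClosed {x : M | Q m t (cl m f) y - s * N y ≤ U x + s⁻¹ * (E * (dist x y ^ 2 / 2) + c₀)} :=
    isClosed_le continuous_const (by fun_prop)
  have hsub : range (TopologicalSpace.denseSeq M) ⊆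
      {x : M | Q m t (cl m f) y - s * N y ≤ U x + s⁻¹ * (E * (dist x y ^ 2 / 2) + c₀)} := by
    rintro _ ⟨i, rfl⟩
    set z := TopologicalSpace.denseSeq M i
    have hcont : Continuous fun D : ℝ => U z + s⁻¹ * (E * (D ^ 2 / 2) + c₀) := by fun_prop
    by_contra hcon
    simp only [mem_setOf_eq, not_le] at hcon
    have h1 := (hcont.tendsto (dist z y)).eventually (gt_mem_nhds hcon)
    obtain ⟨ε, hε, hball⟩ := Metric.eventually_nhds_iff.1 h1
    obtain ⟨q, hq1, hq2⟩ := exists_rat_btwn (show dist z y < dist z y + ε by linarith)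
    have hq0 : (0 : ℚ) ≤ q := by
      have : (0 : ℝ) ≤ q := dist_nonneg.trans hq1.le
      exact_mod_cast this
    have h3 := hy i ⟨q, hq0⟩ hq1.le
    have h4 := hball (y := (q : ℝ)) (by rw [Real.dist_eq, abs_lt]; constructor <;> linarith)
    linarith
  exact (hcl.closure_subset_iff.2 hsub) ((TopologicalSpace.denseRange_denseSeq M) x)

end Vale.Agent.P233.N2.H994.RK
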