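import Vale.Agent.P233.N2.H994.RK3
import Vale.Agent.P233.N2.Slope

/-! P233, RCDA, part K (helper994): `Γ(u,u) = lip(u)²` without bounded support. -/

set_option linter.all false

open MeasureTheory Filter Topology Set
open scoped ENNReal NNReal MeasureTheory

universe u

namespace Vale.Agent.P233.N2.H994.RK

open Vale.Agent.P233.N2.RA

variable {M : Type u} [MetricSpace M] [MeasurableSpace M] [BorelSpace M] {m : Measure M}

/-- cut-off function -/
noncomputable def ch (x₀ : M) (R : ℝ) (x : M) : ℝ := max 0 (min 1 (R + 1 - dist x x₀))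

theorem ch_nonneg (x₀ : M) (R : ℝ) (x : M) : 0 ≤ ch x₀ R x := le_max_left _ _
theorem ch_le (x₀ : M) (R : ℝ) (x : M) : ch x₀ R x ≤ 1 := max_le zero_le_one (min_le_left _ _)
theorem ch_lip (x₀ : M) (R : ℝ) (x y : M) : |ch x₀ R x - ch x₀ R y| ≤ dist x y := by
  unfold ch
  rw [max_comm 0, max_comm 0, min_comm 1, min_comm 1]
  refine (abs_max_sub_max_le_abs _ _ _).trans ((abs_inf_sub_inf_le_abs _ _ _).trans ?_)
  have : (R + 1 - dist x x₀) - (R + 1 - dist y x₀) = dist y x₀ - dist x x₀ := by ring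
  rw [this, dist_comm x y]
  exact abs_dist_sub_le y x x₀
theorem ch_one {x₀ : M} {R : ℝ} {x : M} (h : dist x x₀ ≤ R) : ch x₀ R x = 1 := by
  unfold ch
  rw [min_eq_left (by linarith), max_eq_right zero_le_one]
theorem ch_zero {x₀ : M} {R : ℝ} {x : M} (h : R + 1 ≤ dist x x₀) : ch x₀ R x = 0 := by
  unfold ch
  exact max_eq_left ((min_le_right _ _).trans (by linarith))

theorem lip_mul_ch {u : M → ℝ} {B L : ℝ} (hu : H131.BL u B L) (x₀ : M) (R : ℝ) (x y : M) :
    |u x * ch x₀ R x - u y * ch x₀ R y| ≤ (B + L) * dist x y := by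
  have e : u x * ch x₀ R x - u y * ch x₀ R y
      = u x * (ch x₀ R x - ch x₀ R y) + (u x - u y) * ch x₀ R y := by ring
  rw [e]
  refine (abs_add_le _ _).trans ?_
  rw [abs_mul, abs_mul, abs_of_nonneg (ch_nonneg x₀ R y), add_mul]
  have h1 := hu.bd x
  have h2 := ch_lip x₀ R x y
  have h3 := hu.lip x y
  have h4 := ch_le x₀ R y
  have h5 : 0 ≤ dist x y := dist_nonneg
  have h6 := ch_nonneg x₀ R y
  have hB0 : 0 ≤ B := (abs_nonneg _).trans h1
  have hL0 := hu.L0
  have h7 : |u x| * |ch x₀ R x - ch x₀ R y| ≤ B * dist x y := by gcongr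
  have h8 : |u x - u y| * ch x₀ R y ≤ L * dist x y * 1 := by
    gcongr
  linarith

theorem lipAt_congr {u v : M → ℝ} {x : M} (h : ∀ᶠ y in 𝓝 x, u y = v y) : lipAt u x = lipAt v x := by
  unfold lipAt
  refine limsup_congr ?_
  have hx : u x = v x := h.self_of_nhds
  filter_upwards [h.filter_mono nhdsWithin_le_nhds] with y hy
  rw [hy, hx]

variable [SecondCountableTopology M] {n : ℕ} {K : ℝ} {θ : M → ℝ}

theorem gam_slope {f : M →ₘ[m] ℝ} (hf : f ∈ (sob m).W) :
    ∀ᵐ x ∂m, (sob m).Γ f f x = slope f x ^ 2 := by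
  filter_upwards [sob_Γ_self_ae hf, slope_ae hf] with x h1 h2
  rw [h1, h2]

/-- `Γ(u,u) ≤ lip(u)²` for bounded Lipschitz Sobolev functions -/
theorem gam_le (hN : NSp m n K θ) {u : M → ℝ} {B L : ℝ} (hu : H131.BL u B L)
    (hW : cl m u ∈ (sob m).W) :
    ∀ᵐ x ∂m, (sob m).Γ (cl m u) (cl m u) x ≤ (lipAt u x).toReal ^ 2 := by
  rcases isEmpty_or_nonempty M with hM | hM
  · exact ae_of_all _ fun x => (hM.false x).elim
  obtain ⟨x₀⟩ := hM
  have hD := hN.isDir
  have hB0 : 0 ≤ B := (abs_nonneg _).trans (hu.bd x₀)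
  have key : ∀ k : ℕ, ∀ᵐ x ∂m, dist x x₀ < k →
      (sob m).Γ (cl m u) (cl m u) x ≤ (lipAt u x).toReal ^ 2 := by
    intro k
    set v : M → ℝ := fun x => u x * ch x₀ k x with hv
    have hvL : LipschitzWith ⟨B + L, add_nonneg hB0 hu.L0⟩ v :=
      LipschitzWith.of_dist_le_mul fun x y => by
        rw [Real.dist_eq]; exact lip_mul_ch hu x₀ k x y
    have hvS : ∀ x, (k : ℝ) + 1 ≤ dist x₀ x → v x = 0 := fun x hx => by
      simp only [hv]; rw [ch_zero (by rwa [dist_comm] at hx), mul_zero]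
    have hvW : cl m v ∈ (sob m).W := H183.cl_mem_W hN.fin hvL hvS
    have h1 := Γ_cl_lip hN.fin hvL hvS
    set a : M →ₘ[m] ℝ := cl m u - cl m v with ha
    have haW : a ∈ (sob m).W := hD.sub_mem hW hvW
    have hexp := hD.Γ_expand 1 hvW haW
    rw [one_smul, one_pow, one_smul] at hexp
    have hva : cl m v + a = cl m u := by rw [ha]; abel
    rw [hva] at hexp
    filter_upwards [h1, hD.Γ_zero_ae haW, sub_ae (cl m u) (cl m v),
      cl_ae hu.cont.aestronglyMeasurable (m := m),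
      cl_ae hvL.continuous.aestronglyMeasurable (m := m),
      hD.Γ_cs_ae hvW haW, eq_iff_ae.1 hexp,
      add_ae ((sob m).Γ (cl m v) (cl m v) + (2 * 1 : ℝ) • (sob m).Γ (cl m v) a) ((sob m).Γ a a),
      add_ae ((sob m).Γ (cl m v) (cl m v)) ((2 * 1 : ℝ) • (sob m).Γ (cl m v) a),
      smul_ae ((sob m).Γ (cl m v) a) (2 * 1 : ℝ)]
      with x b1 b3 b4 b5 b6 b7 b8 b9 b10 b11 hx
    have hax : a x = 0 := by
      rw [ha, b4, b5, b6]
      simp only [hv]
      rw [ch_one hx.le]; ring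
    have c1 := b3 hax
    rw [c1, mul_zero] at b7
    have c2 : (sob m).Γ (cl m v) a x = 0 := by
      have := sq_nonneg ((sob m).Γ (cl m v) a x)
      exact pow_eq_zero_iff two_ne_zero |>.1 (le_antisymm b7 this)
    have c3 : lipAt v x = lipAt u x := by
      refine lipAt_congr ?_
      filter_upwards [Metric.ball_mem_nhds x (sub_pos.2 hx)] with y hy
      rw [Metric.mem_ball] at hy
      have := dist_triangle y x x₀
      simp only [hv]
      rw [ch_one (by linarith), mul_one]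
    rw [b8, b9, b10, b11, c1, c2, mul_zero, add_zero, add_zero]
    rw [c3] at b1
    exact b1
  filter_upwards [ae_all_iff.2 key] with x hx
  obtain ⟨k, hk⟩ := exists_nat_gt (dist x x₀)
  exact hx k hk

end Vale.Agent.P233.N2.H994.RK
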