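import Vale.Agent.P233.N2.H994.RK5

/-! P233, RCDA, part K (helper994): suprema of difference quotients of the Hopf-Lax semigroup. -/

set_option linter.all false

open MeasureTheory Filter Topology Set
open scoped ENNReal NNReal MeasureTheory

universe u

namespace Vale.Agent.P233.N2.H994.RK

open Vale.Agent.P233.N2.RA

variable {M : Type u} [MetricSpace M]

/-- difference quotient -/
noncomputable def dq (f : M → ℝ) (s : ℝ) (x : M) : ℝ := (f x - H131.qq f s x) / s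

/-- positive rationals below `σ` -/
def Qs (σ : ℝ) : Type := {s : ℚ // 0 < s ∧ (s : ℝ) ≤ σ}

instance (σ : ℝ) : Countable (Qs σ) := by unfold Qs; infer_instance

/-- supremum of the difference quotients of `f` and `-f` -/
noncomputable def Hh (f : M → ℝ) (σ : ℝ) (x : M) : ℝ :=
  ⨆ s : Qs σ, max (dq f s.1 x) (dq (fun y => -f y) s.1 x)

theorem Hh_neg (f : M → ℝ) (σ : ℝ) : Hh (fun y => -f y) σ = Hh f σ := by
  funext x
  unfold Hh
  congr 1
  funext s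
  simp only [neg_neg]
  rw [max_comm]

theorem BL.neg {f : M → ℝ} {B L : ℝ} (hf : H131.BL f B L) : H131.BL (fun y => -f y) B L :=
  ⟨hf.L0, fun x => by rw [abs_neg]; exact hf.bd x, fun x y => by
    have : -f x - -f y = -(f x - f y) := by ring
    rw [this, abs_neg]; exact hf.lip x y⟩

variable [ProperSpace M] {f : M → ℝ} {B L : ℝ} (hf : H131.BL f B L)

include hf

theorem dq_nonneg {s : ℝ} (hs : 0 < s) (x : M) : 0 ≤ dq f s x :=
  div_nonneg (sub_nonneg.2 (H131.qq_le_self hf x)) hs.le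

theorem dq_le {s : ℝ} (hs : 0 < s) (x : M) : dq f s x ≤ L ^ 2 / 2 := by
  unfold dq
  rw [div_le_iff₀ hs]
  have := H131.sub_qq_le hf hs.le x
  linarith

theorem dq_cont {s : ℝ} (hs : 0 < s) : Continuous (dq f s) := by
  unfold dq
  have h1 := hf.cont
  have h2 := (hf.qq hs.le).cont
  fun_prop

theorem mx_nonneg {σ : ℝ} (s : Qs σ) (x : M) :
    0 ≤ max (dq f s.1 x) (dq (fun y => -f y) s.1 x) :=
  (dq_nonneg hf (by exact_mod_cast s.2.1) x).trans (le_max_left _ _)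

theorem mx_le {σ : ℝ} (s : Qs σ) (x : M) :
    max (dq f s.1 x) (dq (fun y => -f y) s.1 x) ≤ L ^ 2 / 2 :=
  max_le (dq_le hf (by exact_mod_cast s.2.1) x) (dq_le (BL.neg hf) (by exact_mod_cast s.2.1) x)

theorem Hh_bdd {σ : ℝ} (x : M) :
    BddAbove (range fun s : Qs σ => max (dq f s.1 x) (dq (fun y => -f y) s.1 x)) :=
  ⟨L ^ 2 / 2, by rintro _ ⟨s, rfl⟩; exact mx_le hf s x⟩

theorem nonempty_Qs {σ : ℝ} (hσ : 0 < σ) : Nonempty (Qs σ) := by
  obtain ⟨q, h1, h2⟩ := exists_rat_btwn hσ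
  exact ⟨⟨q, by exact_mod_cast h1, h2.le⟩⟩

theorem Hh_nonneg {σ : ℝ} (x : M) : 0 ≤ Hh f σ x :=
  Real.iSup_nonneg fun s => mx_nonneg hf s x

theorem Hh_le {σ : ℝ} (x : M) : Hh f σ x ≤ L ^ 2 / 2 :=
  Real.iSup_le (fun s => mx_le hf s x) (by positivity)

theorem dq_le_Hh {σ : ℝ} {s : ℚ} (hs : 0 < s) (hσ : (s : ℝ) ≤ σ) (x : M) :
    dq f s x ≤ Hh f σ x :=
  (le_max_left _ _).trans (le_ciSup (Hh_bdd hf x) (⟨s, hs, hσ⟩ : Qs σ))

theorem Hh_anti {σ σ' : ℝ} (h0 : 0 < σ) (h : σ ≤ σ') (x : M) : Hh f σ x ≤ Hh f σ' x := by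
  haveI := nonempty_Qs hf h0
  refine ciSup_le fun s => ?_
  exact le_ciSup (Hh_bdd hf (σ := σ') x) (⟨s.1, s.2.1, s.2.2.trans h⟩ : Qs σ')

theorem Hh_meas [MeasurableSpace M] [BorelSpace M] (σ : ℝ) : Measurable (Hh f σ) := by
  refine Measurable.iSup fun s => ?_
  have h1 : (0 : ℝ) < s.1 := by exact_mod_cast s.2.1
  exact (dq_cont hf h1).measurable.max (dq_cont (BL.neg hf) h1).measurable

/-- the limit for `σ → 0` is at most `lip(f)²/2` -/
theorem Hh_small (x : M) {l : ℝ} (hl : 0 < l) (h : lipAt f x < ENNReal.ofReal l) :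
    ∃ σ > 0, Hh f σ x ≤ l ^ 2 / 2 := by
  have h1 := ev_of_lip_lt hl h
  have h2 : ∀ᶠ y in 𝓝 x, |(-f y) - (-f x)| ≤ l * dist y x := h1.mono fun y hy => by
    have : (-f y) - (-f x) = -(f y - f x) := by ring
    rw [this, abs_neg]; exact hy
  have h3 := (H131.sub_qq_small hf hl.le h1).and (H131.sub_qq_small (BL.neg hf) hl.le h2)
  obtain ⟨σ, hσ, h4⟩ := mem_nhdsGT_iff_exists_Ioc_subset.1 h3
  refine ⟨σ, hσ, Real.iSup_le (fun s => ?_) (by positivity)⟩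
  have hs : (0 : ℝ) < s.1 := by exact_mod_cast s.2.1
  obtain ⟨h5, h6⟩ := h4 ⟨hs, s.2.2⟩
  refine max_le ?_ ?_
  · unfold dq; rw [div_le_iff₀ hs]; linarith
  · unfold dq; rw [div_le_iff₀ hs]; linarith

theorem lipAt_ne_top (x : M) : lipAt f x ≠ ∞ :=
  ((lipAt_le hf.L0 fun y => hf.lip y x).trans_lt ENNReal.ofReal_lt_top).ne

theorem iInf_le (x : M) : ⨅ k : ℕ, Hh f (((k : ℝ) + 1)⁻¹) x ≤ (lipAt f x).toReal ^ 2 / 2 := by
  have hb : BddBelow (range fun k : ℕ => Hh f (((k : ℝ) + 1)⁻¹) x) :=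
    ⟨0, by rintro _ ⟨k, rfl⟩; exact Hh_nonneg hf x⟩
  have key : ∀ l : ℝ, (lipAt f x).toReal < l → ⨅ k : ℕ, Hh f (((k : ℝ) + 1)⁻¹) x ≤ l ^ 2 / 2 := by
    intro l hl
    have hl0 : 0 < l := ENNReal.toReal_nonneg.trans_lt hl
    have h1 : lipAt f x < ENNReal.ofReal l := by
      rw [← ENNReal.ofReal_toReal (lipAt_ne_top hf x)]
      exact (ENNReal.ofReal_lt_ofReal_iff hl0).2 hl
    obtain ⟨σ, hσ, h2⟩ := Hh_small hf x hl0 h1
    obtain ⟨k, hk⟩ := exists_nat_one_div_lt hσ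
    refine (ciInf_le hb k).trans ((Hh_anti hf (by positivity) ?_ x).trans h2)
    rw [← one_div]; exact hk.le
  have hcont : Continuous fun l : ℝ => l ^ 2 / 2 := by fun_prop
  exact ge_of_tendsto ((hcont.tendsto (lipAt f x).toReal).mono_left
    (nhdsWithin_le_nhds (s := Ioi (lipAt f x).toReal)))
    (eventually_mem_nhdsWithin.mono fun l (hl : (lipAt f x).toReal < l) => key l hl)

/-- passage to the limit in the integrals -/
theorem Hh_lim [MeasurableSpace M] [BorelSpace M] {m : Measure M} {w g : M → ℝ}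
    (hw : Integrable w m) (hw0 : ∀ᵐ x ∂m, 0 ≤ w x) (hg : Integrable (fun x => g x * w x) m)
    (hle : ∀ᵐ x ∂m, (lipAt f x).toReal ^ 2 / 2 ≤ g x) {c : ℝ}
    (h : ∀ k : ℕ, c ≤ ∫ x, Hh f (((k : ℝ) + 1)⁻¹) x * w x ∂m) : c ≤ ∫ x, g x * w x ∂m := by
  have hb : ∀ x, BddBelow (range fun k : ℕ => Hh f (((k : ℝ) + 1)⁻¹) x) := fun x =>
    ⟨0, by rintro _ ⟨k, rfl⟩; exact Hh_nonneg hf x⟩
  have hm : ∀ k : ℕ, Measurable (Hh f (((k : ℝ) + 1)⁻¹)) := fun k => Hh_meas hf _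
  have hlim : ∀ x, Tendsto (fun k : ℕ => Hh f (((k : ℝ) + 1)⁻¹) x) atTop
      (𝓝 (⨅ k : ℕ, Hh f (((k : ℝ) + 1)⁻¹) x)) := by
    intro x
    refine tendsto_atTop_ciInf (fun i j hij => ?_) (hb x)
    refine Hh_anti hf (by positivity) ?_ x
    have : (i : ℝ) ≤ j := by exact_mod_cast hij
    gcongr
  have h1 : Tendsto (fun k : ℕ => ∫ x, Hh f (((k : ℝ) + 1)⁻¹) x * w x ∂m) atTop
      (𝓝 (∫ x, (⨅ k : ℕ, Hh f (((k : ℝ) + 1)⁻¹) x) * w x ∂m)) := by
    refine tendsto_integral_of_dominated_convergence (fun x => L ^ 2 / 2 * |w x|)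
      (fun k => (hm k).aestronglyMeasurable.mul hw.aestronglyMeasurable)
      (hw.abs.const_mul _) (fun k => ae_of_all _ fun x => ?_)
      (ae_of_all _ fun x => (hlim x).mul_const _)
    rw [norm_mul, Real.norm_of_nonneg (Hh_nonneg hf x), Real.norm_eq_abs]
    exact mul_le_mul_of_nonneg_right (Hh_le hf x) (abs_nonneg _)
  have h2 := ge_of_tendsto' h1 h
  refine h2.trans (integral_mono_of_nonneg ?_ hg ?_)
  · filter_upwards [hw0] with x hx
    exact mul_nonneg (Real.iInf_nonneg fun k => Hh_nonneg hf x) hx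
  · filter_upwards [hw0, hle] with x hx hx2
    exact mul_le_mul_of_nonneg_right ((iInf_le hf x).trans hx2) hx

end Vale.Agent.P233.N2.H994.RK
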